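import Vale.Agent.P329.Schutz2

namespace Vale.Agent.P329

section Dyn

variable {X : Type}

theorem iterate_stab_aux (f : X → X) (h : ∀ (x : X) (j : ℕ), 0 < j → f^[j] x = x → f x = x)
    (x : X) (N i j : ℕ) (hij : i < j) (hj : j ≤ N) (he : f^[i] x = f^[j] x) :
    f^[N] x = f^[N + 1] x := by
  have hy : f^[j - i] (f^[i] x) = f^[i] x := by
    rw [← Function.iterate_add_apply, Nat.sub_add_cancel hij.le, ← he]
  have hfix : f (f^[i] x) = f^[i] x := h _ _ (by omega) hy
  obtain ⟨d, rfl⟩ := Nat.exists_eq_add_of_le (show i ≤ N by omega)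
  have hall : ∀ d : ℕ, f^[d] (f^[i] x) = f^[i] x := by
    intro d
    induction d with
    | zero => rfl
    | succ d ih => rw [Function.iterate_succ_apply', ih, hfix]
  have e1 : f^[i + d] x = f^[i] x := by
    rw [Nat.add_comm, Function.iterate_add_apply, hall]
  have e2 : f^[i + d + 1] x = f^[i] x := by
    rw [show i + d + 1 = (d + 1) + i by omega, Function.iterate_add_apply, hall]
  rw [e1, e2]

theorem iterate_stab [Finite X] (f : X → X)
    (h : ∀ (x : X) (j : ℕ), 0 < j → f^[j] x = x → f x = x) :
    ∃ k, f^[k] = f^[k + 1] := by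
  classical
  have := Fintype.ofFinite X
  refine ⟨Fintype.card X, funext fun x => ?_⟩
  obtain ⟨⟨i, hi⟩, ⟨j, hj⟩, hij, he⟩ := Fintype.exists_ne_map_eq_of_card_lt
    (fun i : Fin (Fintype.card X + 1) => f^[i.1] x) (by simp)
  have hij' : i ≠ j := fun e => hij (by simp [e])
  have he' : f^[i] x = f^[j] x := he
  rcases lt_or_gt_of_ne hij' with hlt | hlt
  · exact iterate_stab_aux f h x _ i j hlt (by omega) he'
  · exact iterate_stab_aux f h x _ j i hlt (by omega) he'.symm

end Dyn

section Action

variable {A X : Type}

/-- Run of a deterministic automaton given by `act`. -/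
def arun (act : X → A → X) (x : X) (w : List A) : X := w.foldl act x

@[simp] theorem arun_nil (act : X → A → X) (x : X) : arun act x [] = x := rfl

@[simp] theorem arun_cons (act : X → A → X) (x : X) (a : A) (w : List A) :
    arun act x (a :: w) = arun act (act x a) w := rfl

theorem arun_append (act : X → A → X) (x : X) (u v : List A) :
    arun act x (u ++ v) = arun act (arun act x u) v := by
  simp [arun, List.foldl_append]

/-- Underlying function of an element of the opposite endomorphism monoid. -/
def toFn (s : (Function.End X)ᵐᵒᵖ) : X → X := MulOpposite.unop s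

theorem toFn_mul (s t : (Function.End X)ᵐᵒᵖ) (x : X) : toFn (s * t) x = toFn t (toFn s x) := rfl

theorem toFn_one (x : X) : toFn (1 : (Function.End X)ᵐᵒᵖ) x = x := rfl

theorem toFn_pow (s : (Function.End X)ᵐᵒᵖ) (k : ℕ) : toFn (s ^ k) = (toFn s)^[k] := rfl

theorem toFn_injective : Function.Injective (toFn : (Function.End X)ᵐᵒᵖ → X → X) :=
  MulOpposite.unop_injective

/-- Letter action as an element of the opposite endomorphism monoid. -/
def phi0 (act : X → A → X) (a : A) : (Function.End X)ᵐᵒᵖ :=
  MulOpposite.op (fun x => act x a)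

theorem toFn_prod_phi0 (act : X → A → X) (w : List A) (x : X) :
    toFn ((w.map (phi0 act)).prod) x = arun act x w := by
  induction w generalizing x with
  | nil => rfl
  | cons a w ih =>
    rw [List.map_cons, List.prod_cons, toFn_mul, ih]
    rfl

/-- Counter-free deterministic automata recognize star-free languages. -/
theorem schutz_action [Finite X] [Finite A] (act : X → A → X)
    (hcf : ∀ (u : List A) (x : X) (j : ℕ), 0 < j →
      (fun s => arun act s u)^[j] x = x → arun act x u = x)
    (x y : X) : HT 0 ({w : List A | arun act x w = y} : Set (List A)) := by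
  classical
  let S : Submonoid (Function.End X)ᵐᵒᵖ := MonoidHom.mrange (FreeMonoid.lift (phi0 act))
  have hfinE : Finite (Function.End X) := by
    unfold Function.End
    infer_instance
  have hfinO : Finite (Function.End X)ᵐᵒᵖ := Finite.of_equiv _ MulOpposite.opEquiv
  have hfinS : Finite S := inferInstance
  let φ : A → S := fun a => ⟨phi0 act a, ⟨FreeMonoid.of a, by simp⟩⟩
  have hφ : ∀ w : List A, ((w.map φ).prod : S).1 = (w.map (phi0 act)).prod := by
    intro w
    rw [Submonoid.coe_list_prod, List.map_map]
    rfl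
  have hap : ∀ s : S, ∃ k, s ^ k = s ^ (k + 1) := by
    rintro ⟨s, u, rfl⟩
    have hu : FreeMonoid.lift (phi0 act) u = ((FreeMonoid.toList u).map (phi0 act)).prod := by
      rw [FreeMonoid.lift_apply]
    obtain ⟨k, hk⟩ := iterate_stab (fun s => arun act s (FreeMonoid.toList u))
      (fun x j hj h => hcf _ x j hj h)
    refine ⟨k, Subtype.ext ?_⟩
    rw [SubmonoidClass.coe_pow, SubmonoidClass.coe_pow]
    apply toFn_injective
    rw [toFn_pow, toFn_pow]
    have hf : toFn (FreeMonoid.lift (phi0 act) u) =
        (fun s => arun act s (FreeMonoid.toList u)) := by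
      funext s
      rw [hu]
      exact toFn_prod_phi0 act _ s
    show (toFn (FreeMonoid.lift (phi0 act) u))^[k] = (toFn (FreeMonoid.lift (phi0 act) u))^[k + 1]
    rw [hf]
    exact hk
  have hU := HT.exists_fintype_of (k := 0)
    (fun s : S => toFn s.1 x = y)
    (fun s => ({w : List A | (w.map φ).prod = s} : Set (List A)))
    (fun s _ => schutz hap φ s)
  refine HT.of_iff hU fun w => ?_
  constructor
  · intro h
    refine ⟨(w.map φ).prod, ?_, rfl⟩
    show toFn ((w.map φ).prod : S).1 x = y
    rw [hφ, toFn_prod_phi0]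
    exact h
  · rintro ⟨s, hs, hw⟩
    have hw' : (w.map φ).prod = s := hw
    subst hw'
    have hs' : toFn ((w.map φ).prod : S).1 x = y := hs
    rw [hφ, toFn_prod_phi0] at hs'
    exact hs'

end Action

end Vale.Agent.P329
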