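import Vale.Agent.P329.Defs

namespace Vale.Agent.P329

open GRegex

variable {α : Type}

/-- `HT k L`: the language `L` is denoted by an expression of star height at most `k`. -/
def HT (k : ℕ) (L : Language α) : Prop := ∃ P : GRegex α, P.sh ≤ k ∧ P.lang = L

theorem HT.mono {k k' : ℕ} {L : Language α} (h : HT k L) (hk : k ≤ k') : HT k' L := by
  obtain ⟨P, hP, rfl⟩ := h
  exact ⟨P, hP.trans hk, rfl⟩

theorem HT.of_iff {k : ℕ} {L K : Language α} (h : HT k L) (e : ∀ w, w ∈ K ↔ w ∈ L) : HT k K := by
  have : K = L := by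
    ext w
    exact e w
  rw [this]
  exact h

theorem HT.zero (k : ℕ) : HT k (0 : Language α) := ⟨GRegex.zero, by simp [sh], rfl⟩

theorem HT.one (k : ℕ) : HT k (1 : Language α) := ⟨GRegex.one, by simp [sh], rfl⟩

theorem HT.letter (k : ℕ) (a : α) : HT k ({[a]} : Language α) :=
  ⟨GRegex.letter a, by simp [sh], rfl⟩

theorem HT.add {k : ℕ} {L K : Language α} (hL : HT k L) (hK : HT k K) : HT k (L + K) := by
  obtain ⟨P, hP, rfl⟩ := hL
  obtain ⟨Q, hQ, rfl⟩ := hK
  exact ⟨GRegex.union P Q, by simp [sh, hP, hQ], rfl⟩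

theorem HT.mul {k : ℕ} {L K : Language α} (hL : HT k L) (hK : HT k K) : HT k (L * K) := by
  obtain ⟨P, hP, rfl⟩ := hL
  obtain ⟨Q, hQ, rfl⟩ := hK
  exact ⟨GRegex.concat P Q, by simp [sh, hP, hQ], rfl⟩

theorem HT.compl {k : ℕ} {L : Language α} (hL : HT k L) : HT k Lᶜ := by
  obtain ⟨P, hP, rfl⟩ := hL
  exact ⟨GRegex.compl P, by simp [sh, hP], rfl⟩

theorem HT.star {k : ℕ} {L : Language α} (hL : HT k L) : HT (k + 1) (KStar.kstar L) := by
  obtain ⟨P, hP, rfl⟩ := hL
  exact ⟨GRegex.star P, by simp [sh, hP], rfl⟩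

theorem HT.sup {k : ℕ} {L K : Language α} (hL : HT k L) (hK : HT k K) : HT k (L ⊔ K) :=
  hL.add hK

theorem HT.inf {k : ℕ} {L K : Language α} (hL : HT k L) (hK : HT k K) : HT k (L ⊓ K) := by
  have h := (hL.compl.sup hK.compl).compl
  rwa [compl_sup, compl_compl, compl_compl] at h

theorem HT.sdiff {k : ℕ} {L K : Language α} (hL : HT k L) (hK : HT k K) : HT k (L \ K) := by
  rw [sdiff_eq]
  exact hL.inf hK.compl

theorem HT.bot (k : ℕ) : HT k (⊥ : Language α) := HT.zero k

theorem HT.top (k : ℕ) : HT k (⊤ : Language α) := by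
  have h := (HT.bot (α := α) k).compl
  rwa [compl_bot] at h

theorem HT.pow {k : ℕ} {L : Language α} (hL : HT k L) (n : ℕ) : HT k (L ^ n) := by
  induction n with
  | zero => simpa using HT.one k
  | succ n ih => rw [pow_succ]; exact ih.mul hL

theorem HT.finset_sup {k : ℕ} {ι : Type*} (s : Finset ι) (f : ι → Language α)
    (h : ∀ i ∈ s, HT k (f i)) : HT k (s.sup f) := by
  classical
  induction s using Finset.induction_on with
  | empty => simpa using HT.bot k
  | insert a s ha ih =>
    rw [Finset.sup_insert]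
    exact (h a (Finset.mem_insert_self a s)).sup
      (ih fun i hi => h i (Finset.mem_insert_of_mem hi))

theorem HT.finset_inf {k : ℕ} {ι : Type*} (s : Finset ι) (f : ι → Language α)
    (h : ∀ i ∈ s, HT k (f i)) : HT k (s.inf f) := by
  classical
  induction s using Finset.induction_on with
  | empty => simpa using HT.top k
  | insert a s ha ih =>
    rw [Finset.inf_insert]
    exact (h a (Finset.mem_insert_self a s)).inf
      (ih fun i hi => h i (Finset.mem_insert_of_mem hi))

theorem mem_finset_sup {ι : Type*} (s : Finset ι) (f : ι → Language α) (w : List α) :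
    w ∈ s.sup f ↔ ∃ i ∈ s, w ∈ f i := by
  classical
  induction s using Finset.induction_on with
  | empty => simp; exact fun h => h
  | insert a s ha ih =>
    rw [Finset.sup_insert]
    constructor
    · rintro (h | h)
      · exact ⟨a, Finset.mem_insert_self a s, h⟩
      · obtain ⟨i, hi, hw⟩ := ih.1 h
        exact ⟨i, Finset.mem_insert_of_mem hi, hw⟩
    · rintro ⟨i, hi, hw⟩
      rcases Finset.mem_insert.1 hi with rfl | hi
      · exact Or.inl hw
      · exact Or.inr (ih.2 ⟨i, hi, hw⟩)

theorem mem_finset_inf {ι : Type*} (s : Finset ι) (f : ι → Language α) (w : List α) :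
    w ∈ s.inf f ↔ ∀ i ∈ s, w ∈ f i := by
  classical
  induction s using Finset.induction_on with
  | empty => simp; exact trivial
  | insert a s ha ih =>
    rw [Finset.inf_insert]
    constructor
    · rintro ⟨h1, h2⟩ i hi
      rcases Finset.mem_insert.1 hi with rfl | hi
      · exact h1
      · exact ih.1 h2 i hi
    · intro h
      exact ⟨h a (Finset.mem_insert_self a s), ih.2 fun i hi => h i (Finset.mem_insert_of_mem hi)⟩

/-- Finite unions indexed by a finite type, in set-builder form. -/
theorem HT.exists_fintype {k : ℕ} {ι : Type*} [Finite ι] (f : ι → Language α)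
    (h : ∀ i, HT k (f i)) : HT k ({w | ∃ i, w ∈ f i} : Set (List α)) := by
  classical
  have := Fintype.ofFinite ι
  refine HT.of_iff (HT.finset_sup (Finset.univ) f (fun i _ => h i)) fun w => ?_
  rw [mem_finset_sup]
  simp only [Finset.mem_univ, true_and]
  exact Iff.rfl

theorem HT.forall_fintype {k : ℕ} {ι : Type*} [Finite ι] (f : ι → Language α)
    (h : ∀ i, HT k (f i)) : HT k ({w | ∀ i, w ∈ f i} : Set (List α)) := by
  classical
  have := Fintype.ofFinite ι
  refine HT.of_iff (HT.finset_inf (Finset.univ) f (fun i _ => h i)) fun w => ?_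
  rw [mem_finset_inf]
  simp only [Finset.mem_univ, true_imp_iff]
  exact Iff.rfl

/-- Union over those indices satisfying a predicate. -/
theorem HT.exists_fintype_of {k : ℕ} {ι : Type*} [Finite ι] (p : ι → Prop) (f : ι → Language α)
    (h : ∀ i, p i → HT k (f i)) : HT k ({w | ∃ i, p i ∧ w ∈ f i} : Set (List α)) := by
  classical
  refine HT.of_iff (HT.exists_fintype (fun i : {i // p i} => f i.1) (fun i => h i.1 i.2))
    fun w => ?_
  constructor
  · rintro ⟨i, hi, hw⟩
    exact ⟨⟨i, hi⟩, hw⟩
  · rintro ⟨⟨i, hi⟩, hw⟩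
    exact ⟨i, hi, hw⟩

/-- The set of single-letter words with letter in a given set. -/
theorem HT.letters [Finite α] (k : ℕ) (B : Set α) :
    HT k ({w | ∃ a ∈ B, w = [a]} : Set (List α)) := by
  have := HT.exists_fintype_of (k := k) (fun a : α => a ∈ B) (fun a => ({[a]} : Language α))
    (fun a _ => HT.letter k a)
  exact this

/-- The set of all words over a sub-alphabet `B` is star-free. -/
theorem HT.wordsOver [Finite α] (k : ℕ) (B : Set α) :
    HT k ({w | ∀ a ∈ w, a ∈ B} : Set (List α)) := by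
  have h := (((HT.top k).mul (HT.letters k Bᶜ)).mul (HT.top k)).compl
  refine HT.of_iff h fun w => ?_
  constructor
  · intro hw hmem
    obtain ⟨x, hx, z, -, rfl⟩ := Language.mem_mul.1 hmem
    obtain ⟨u, -, y, ⟨a, ha, rfl⟩, rfl⟩ := Language.mem_mul.1 hx
    exact ha (hw a (by simp))
  · intro hw a ha
    by_contra hB
    apply hw
    obtain ⟨u, v, rfl⟩ := List.append_of_mem ha
    refine Language.mem_mul.2 ⟨u ++ [a], Language.mem_mul.2 ⟨u, trivial, [a], ⟨a, hB, rfl⟩, rfl⟩,
      v, trivial, by simp⟩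

end Vale.Agent.P329
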