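import Mathlib

namespace Vale.Agent.P329

/-- Generalized regular expressions over the alphabet `α`: the constants `0`, `1`, the letters,
union, concatenation, complement (in the set of all words over `α`) and Kleene star. -/
inductive GRegex (α : Type) : Type
  | zero : GRegex α
  | one : GRegex α
  | letter : α → GRegex α
  | union : GRegex α → GRegex α → GRegex α
  | concat : GRegex α → GRegex α → GRegex α
  | compl : GRegex α → GRegex α
  | star : GRegex α → GRegex α

namespace GRegex

variable {α : Type}

/-- The language denoted by a generalized regular expression. -/
def lang : GRegex α → Language α
  | zero => 0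
  | one => 1
  | letter a => {[a]}
  | union P Q => P.lang + Q.lang
  | concat P Q => P.lang * Q.lang
  | compl P => (P.lang)ᶜ
  | star P => KStar.kstar P.lang

/-- The star height of a generalized regular expression. -/
def sh : GRegex α → ℕ
  | zero => 0
  | one => 0
  | letter _ => 0
  | union P Q => max P.sh Q.sh
  | concat P Q => max P.sh Q.sh
  | compl P => P.sh
  | star P => P.sh + 1

end GRegex

end Vale.Agent.P329
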