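import Vale.Agent.P329.Prime

namespace Vale.Agent.P329

section Char

theorem exists_char_aux (p : ℕ) [Fact p.Prime] {V : Type} [AddCommGroup V] [Module (ZMod p) V]
    {v : V} (hv : v ≠ 0) : ∃ f : V →+ ZMod p, f v ≠ 0 := by
  obtain ⟨f, hf⟩ := Module.Projective.exists_dual_ne_zero (ZMod p) hv
  exact ⟨f.toAddMonoidHom, hf⟩

variable {T : Type} [CommGroup T] (p : ℕ) [Fact p.Prime]

/-- Characters with values in the cyclic group of order `p` separate the points of an elementary
abelian `p`-group. -/
theorem exists_char (hT : ∀ t : T, t ^ p = 1) {t : T} (ht : t ≠ 1) :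
    ∃ χ : T →* Multiplicative (ZMod p), χ t ≠ 1 := by
  have hne : Additive.ofMul t ≠ 0 := fun h => ht (by simpa using h)
  obtain ⟨f, hf⟩ := @exists_char_aux p _ (Additive T) _
    (AddCommGroup.zmodModule (n := p) (fun x => by
      show Additive.ofMul (x.toMul ^ p) = 0
      rw [hT]
      rfl)) _ hne
  refine ⟨AddMonoidHom.toMultiplicativeRight f, fun h => hf ?_⟩
  have h' : Multiplicative.ofAdd (f (Additive.ofMul t)) = 1 := h
  simpa using h'

theorem card_zp : Nat.card (Multiplicative (ZMod p)) = p := by
  show Nat.card (ZMod p) = p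
  simp

/-- The number of characters killing a nontrivial element. -/
theorem card_char_ker [Finite T] (hT : ∀ t : T, t ^ p = 1) {t : T} (ht : t ≠ 1) :
    Nat.card {χ : T →* Multiplicative (ZMod p) // χ t = 1} * p =
      Nat.card (T →* Multiplicative (ZMod p)) := by
  let ev : (T →* Multiplicative (ZMod p)) →* Multiplicative (ZMod p) := MonoidHom.eval t
  have hr : Nat.card ev.range = p := by
    have hprime : (Nat.card (Multiplicative (ZMod p))).Prime := by
      rw [card_zp]
      exact Fact.out
    have : Fact (Nat.card (Multiplicative (ZMod p))).Prime := ⟨hprime⟩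
    rcases Subgroup.eq_bot_or_eq_top_of_prime_card ev.range with h | h
    · exfalso
      obtain ⟨χ, hχ⟩ := exists_char p hT ht
      apply hχ
      have : ev χ ∈ ev.range := ⟨χ, rfl⟩
      rw [h, Subgroup.mem_bot] at this
      exact this
    · rw [h, Subgroup.card_top, card_zp]
  have h1 := Subgroup.card_mul_index ev.ker
  rw [Subgroup.index_ker, hr] at h1
  exact h1

end Char

section OccHom

variable {A T T' : Type} [Group T] [Group T']

open Classical in
/-- Level counts for the image under a homomorphism. -/
theorem occ_hom [Fintype T] (f : T →* T') (π : A → T) (c : A) (k : T') (t : T) (w : List A) :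
    occ (fun a => f (π a)) c k (f t) w = ∑ l : T, if f l = k then occ π c l t w else 0 := by
  induction w generalizing t with
  | nil => simp [occ]
  | cons a w ih =>
    have h := ih (t * π a)
    rw [map_mul] at h
    have hL : ∀ l, occ π c l t (a :: w) =
        (if a = c ∧ t = l then 1 else 0) + occ π c l (t * π a) w := by
      intro l
      unfold occ
      rw [cnt_cons]
      congr
    have hR : occ (fun a => f (π a)) c k (f t) (a :: w) =
        (if a = c ∧ f t = k then 1 else 0) + occ (fun a => f (π a)) c k (f t * f (π a)) w := by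
      unfold occ
      rw [cnt_cons]
      have e : lev (fun a => f (π a)) (f t) a = f t * f (π a) := rfl
      rw [e]
      congr
    rw [hR, h]
    simp only [hL]
    have : ∀ l : T, (if f l = k then (if a = c ∧ t = l then 1 else 0) + occ π c l (t * π a) w
        else 0) = (if f l = k ∧ a = c ∧ t = l then 1 else 0) +
          (if f l = k then occ π c l (t * π a) w else 0) := by
      intro l
      by_cases h1 : f l = k
      · simp [h1]
      · simp [h1]
    rw [Finset.sum_congr rfl (fun l _ => this l), Finset.sum_add_distrib]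
    congr 1
    by_cases h2 : a = c ∧ f t = k
    · rw [if_pos h2, Finset.sum_eq_single t]
      · rw [if_pos ⟨h2.2, h2.1, rfl⟩]
      · intro l _ hl
        rw [if_neg]
        rintro ⟨-, -, h3⟩
        exact hl h3.symm
      · intro h
        exact absurd (Finset.mem_univ t) h
    · rw [if_neg h2]
      symm
      apply Finset.sum_eq_zero
      intro l _
      rw [if_neg]
      rintro ⟨h3, h4, rfl⟩
      exact h2 ⟨h4, h3⟩

end OccHom

section ElemMain

variable {A T : Type} [CommGroup T] (p : ℕ) [Fact p.Prime]

theorem hgen_zp : ∀ d : Multiplicative (ZMod p), d ≠ 1 → ∀ t, ∃ i : ℕ, d ^ i = t :=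
  hgen_of_prime (by rw [card_zp]; exact Fact.out)

open Classical in
theorem card_char_eq [Fintype T] [Fintype (T →* Multiplicative (ZMod p))]
    (hT : ∀ t : T, t ^ p = 1) (l l' : T) :
    p * (Finset.univ.filter (fun χ : T →* Multiplicative (ZMod p) => χ l' = χ l)).card =
      if l' = l then p * Fintype.card (T →* Multiplicative (ZMod p))
      else Fintype.card (T →* Multiplicative (ZMod p)) := by
  by_cases h : l' = l
  · subst h
    simp
  · rw [if_neg h]
    have ht : l' * l⁻¹ ≠ 1 := fun h' => h (by simpa [mul_inv_eq_one] using h')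
    have h1 := card_char_ker p hT ht
    rw [Nat.card_eq_fintype_card, Nat.card_eq_fintype_card, Fintype.card_subtype] at h1
    rw [mul_comm, ← h1]
    congr 2
    ext χ
    simp only [Finset.mem_filter, Finset.mem_univ, true_and, map_mul, map_inv, mul_inv_eq_one]

open Classical in
theorem occ_elem_identity [Fintype T] [Fintype (T →* Multiplicative (ZMod p))]
    (hT : ∀ t : T, t ^ p = 1) (π : A → T) (c : A) (l : T) (w : List A) :
    p * ∑ χ : T →* Multiplicative (ZMod p), occ (fun a => χ (π a)) c (χ l) 1 w =
      (p - 1) * Fintype.card (T →* Multiplicative (ZMod p)) * occ π c l 1 w +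
        Fintype.card (T →* Multiplicative (ZMod p)) *
          occ (fun _ : A => (1 : Unit)) c 1 1 w := by
  have h1 : ∀ χ : T →* Multiplicative (ZMod p), occ (fun a => χ (π a)) c (χ l) 1 w =
      ∑ l' : T, if χ l' = χ l then occ π c l' 1 w else 0 := by
    intro χ
    have := occ_hom χ π c (χ l) 1 w
    rw [map_one] at this
    convert this
  rw [Finset.sum_congr rfl (fun χ _ => h1 χ), Finset.sum_comm]
  have h2 : ∀ l' : T, (∑ χ : T →* Multiplicative (ZMod p),
      if χ l' = χ l then occ π c l' 1 w else 0) =
      (Finset.univ.filter (fun χ : T →* Multiplicative (ZMod p) => χ l' = χ l)).card *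
        occ π c l' 1 w := by
    intro l'
    rw [← Finset.sum_filter, Finset.sum_const, smul_eq_mul]
  rw [Finset.sum_congr rfl (fun l' _ => h2 l'), Finset.mul_sum]
  have h3 : ∀ l' : T, p * ((Finset.univ.filter
      (fun χ : T →* Multiplicative (ZMod p) => χ l' = χ l)).card * occ π c l' 1 w) =
      (if l' = l then (p - 1) * Fintype.card (T →* Multiplicative (ZMod p)) * occ π c l 1 w
        else 0) + Fintype.card (T →* Multiplicative (ZMod p)) * occ π c l' 1 w := by
    intro l'
    rw [← mul_assoc, card_char_eq p hT]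
    have hp : 1 ≤ p := (Fact.out : p.Prime).one_lt.le
    by_cases h : l' = l
    · subst h
      rw [if_pos rfl, if_pos rfl]
      obtain ⟨p', rfl⟩ : ∃ p', p = p' + 1 := ⟨p - 1, by omega⟩
      simp only [Nat.add_sub_cancel]
      ring
    · rw [if_neg h, if_neg h, zero_add]
  rw [Finset.sum_congr rfl (fun l' _ => h3 l'), Finset.sum_add_distrib, Finset.sum_ite_eq',
    if_pos (Finset.mem_univ _), ← Finset.mul_sum, occ_sum]

/-- Level counts are measurable when the level group is an elementary abelian `p`-group. -/
theorem occ_Meas_elem [Finite A] [Finite T] (hT : ∀ t : T, t ^ p = 1) (π : A → T) (c : A) (l : T)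
    (n : ℕ) [NeZero n] : Meas (fun w : List A => ((occ π c l 1 w : ℕ) : ZMod n)) := by
  classical
  have := Fintype.ofFinite T
  have : Finite (T →* Multiplicative (ZMod p)) := DFunLike.finite _
  have := Fintype.ofFinite (T →* Multiplicative (ZMod p))
  set D := Fintype.card (T →* Multiplicative (ZMod p)) with hD
  have hDpos : 0 < D := Fintype.card_pos
  have hp : 1 < p := (Fact.out : p.Prime).one_lt
  have hE : 0 < (p - 1) * D := Nat.mul_pos (by omega) hDpos
  have hn : 0 < n := Nat.pos_of_ne_zero (NeZero.ne n)
  have : NeZero ((p - 1) * D * n) := ⟨(Nat.mul_pos hE hn).ne'⟩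
  have h1 := Meas.pi (fun χ : T →* Multiplicative (ZMod p) =>
    occ_Meas (π := fun a => χ (π a)) (hgen_zp p) c (χ l) ((p - 1) * D * n))
  have h2 := tot_Meas (A := A) c ((p - 1) * D * n)
  refine (h1.prodMk h2).of_determined fun w w' h => ?_
  simp only [Prod.mk.injEq] at h
  obtain ⟨h3, h4⟩ := h
  have e := fun w => congrArg (fun z : ℕ => (z : ZMod ((p - 1) * D * n)))
    (occ_elem_identity p hT π c l w)
  simp only [Nat.cast_mul, Nat.cast_add, Nat.cast_sum] at e
  have e1 := e w
  have e2 := e w'
  have h5 : ∀ χ : T →* Multiplicative (ZMod p),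
      ((occ (fun a => χ (π a)) c (χ l) 1 w : ℕ) : ZMod ((p - 1) * D * n)) =
        (occ (fun a => χ (π a)) c (χ l) 1 w' : ℕ) := fun χ => congrFun h3 χ
  rw [Finset.sum_congr rfl (fun χ _ => h5 χ), e2, h4] at e1
  have e3 := add_right_cancel e1
  have hz : (((((p - 1) * D : ℕ) : ℤ) * ((occ π c l 1 w : ℤ) - (occ π c l 1 w' : ℤ)) : ℤ) :
      ZMod ((p - 1) * D * n)) = 0 := by
    push_cast
    rw [mul_sub, sub_eq_zero]
    exact e3.symm
  rw [ZMod.intCast_zmod_eq_zero_iff_dvd] at hz
  rw [Nat.cast_mul ((p - 1) * D) n] at hz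
  have hdvd : (n : ℤ) ∣ (occ π c l 1 w : ℤ) - (occ π c l 1 w' : ℤ) :=
    Int.dvd_of_mul_dvd_mul_left (by exact_mod_cast hE.ne') hz
  have := (ZMod.intCast_zmod_eq_zero_iff_dvd _ n).2 hdvd
  push_cast at this
  exact sub_eq_zero.1 this

/-- The final level is measurable. -/
theorem level_final_Meas_elem [Finite A] [Finite T] (hT : ∀ t : T, t ^ p = 1) (π : A → T) :
    Meas (fun w : List A => (w.map π).prod) := by
  have : Finite (T →* Multiplicative (ZMod p)) := DFunLike.finite _
  have h1 := Meas.pi (fun χ : T →* Multiplicative (ZMod p) =>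
    level_final_Meas (hgen_zp p) (fun a => χ (π a)))
  refine h1.of_determined fun w w' h => ?_
  by_contra hne
  have ht : (w.map π).prod * ((w'.map π).prod)⁻¹ ≠ 1 := fun h' => hne (by
    simpa [mul_inv_eq_one] using h')
  obtain ⟨χ, hχ⟩ := exists_char p hT ht
  apply hχ
  have h2 := congrFun h χ
  have e : ∀ w : List A, (w.map (fun a => χ (π a))).prod = χ ((w.map π).prod) := by
    intro w
    rw [map_list_prod, List.map_map]
    rfl
  simp only [e] at h2
  rw [map_mul, map_inv, h2, mul_inv_cancel]

end ElemMain

section ElemFinal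

variable {A G : Type} [Group G]

/-- Abelian by elementary abelian. -/
theorem abelian_by_elem [Finite A] [Finite G] (N : Subgroup G) [N.Normal]
    (hN : ∀ x ∈ N, ∀ y ∈ N, x * y = y * x) (p : ℕ) (hp : p.Prime)
    (hcomm : ∀ g h : G, g * h * g⁻¹ * h⁻¹ ∈ N) (hpow : ∀ g : G, g ^ p ∈ N) (φ : A → G)
    (S : Set G) : HT 1 ({w : List A | (w.map φ).prod ∈ S} : Set (List A)) := by
  have : Fact p.Prime := ⟨hp⟩
  letI : CommGroup (G ⧸ N) :=
    { (inferInstance : Group (G ⧸ N)) with
      mul_comm := by
        intro x y
        induction x using QuotientGroup.induction_on with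
        | H g =>
          induction y using QuotientGroup.induction_on with
          | H h =>
            rw [← QuotientGroup.mk_mul, ← QuotientGroup.mk_mul, QuotientGroup.eq]
            have := hcomm h⁻¹ g⁻¹
            have e : (g * h)⁻¹ * (h * g) = h⁻¹ * g⁻¹ * h⁻¹⁻¹ * g⁻¹⁻¹ := by group
            rw [e]
            exact this }
  have hT : ∀ t : G ⧸ N, t ^ p = 1 := by
    intro t
    induction t using QuotientGroup.induction_on with
    | H g =>
      rw [← QuotientGroup.mk_pow, QuotientGroup.eq_one_iff]
      exact hpow g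
  have : NeZero (Nat.card N) := ⟨Nat.card_pos.ne'⟩
  exact ext_HT N hN φ (fun c l => occ_Meas_elem p hT _ c l _) (level_final_Meas_elem p hT _) S

end ElemFinal

end Vale.Agent.P329
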