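import Vale.Agent.P329.Occ2

namespace Vale.Agent.P329

section Ext

variable {A G T C : Type} [Group G] [Group T] [CommGroup C]

theorem ext_formula [Fintype T] [Fintype A] (ι : C →* G) (π : A → T) (φ : A → G) (s : T → G)
    (β : T → A → C) (hβ : ∀ t a, s t * φ a = ι (β t a) * s (t * π a)) (w : List A) (t : T) :
    s t * (w.map φ).prod =
      ι (∏ x : T × A, β x.1 x.2 ^ occ π x.2 x.1 t w) * s (t * (w.map π).prod) := by
  classical
  induction w generalizing t with
  | nil => simp [occ]
  | cons a w ih =>
    have hocc : ∀ x : T × A, occ π x.2 x.1 t (a :: w) =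
        (if (t, a) = x then 1 else 0) + occ π x.2 x.1 (t * π a) w := by
      intro x
      unfold occ
      rw [cnt_cons]
      congr 1
      obtain ⟨l, c⟩ := x
      by_cases h : a = c ∧ t = l
      · rw [if_pos h, if_pos (by rw [h.1, h.2])]
      · rw [if_neg h, if_neg]
        intro h'
        rw [Prod.mk.injEq] at h'
        exact h ⟨h'.2, h'.1⟩
    simp only [hocc, pow_add, Finset.prod_mul_distrib]
    rw [Finset.prod_pow_boole, if_pos (Finset.mem_univ _), map_mul, List.map_cons, List.prod_cons,
      List.map_cons, List.prod_cons, ← mul_assoc, hβ, mul_assoc, ih, mul_assoc, mul_assoc]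

theorem ext_determined [Finite T] [Finite A] [Finite C] (ι : C →* G) (π : A → T) (φ : A → G)
    (s : T → G) (β : T → A → C) (hβ : ∀ t a, s t * φ a = ι (β t a) * s (t * π a))
    (w w' : List A)
    (h1 : ∀ (c : A) (l : T), ((occ π c l 1 w : ℕ) : ZMod (Nat.card C)) = (occ π c l 1 w' : ℕ))
    (h2 : (w.map π).prod = (w'.map π).prod) : (w.map φ).prod = (w'.map φ).prod := by
  classical
  have := Fintype.ofFinite T
  have := Fintype.ofFinite A
  have e1 := ext_formula ι π φ s β hβ w 1
  have e2 := ext_formula ι π φ s β hβ w' 1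
  have e3 : ∏ x : T × A, β x.1 x.2 ^ occ π x.2 x.1 1 w =
      ∏ x : T × A, β x.1 x.2 ^ occ π x.2 x.1 1 w' := by
    refine Finset.prod_congr rfl fun x _ => ?_
    have := h1 x.2 x.1
    rw [ZMod.natCast_eq_natCast_iff] at this
    rw [← pow_mod_natCard, this, pow_mod_natCard]
  rw [e3, h2, ← e2] at e1
  exact mul_left_cancel e1

end Ext

section Final

variable {A G : Type} [Group G]

open scoped IsMulCommutative in
/-- If all level counts and the final level are measurable for the quotient by an abelian normal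
subgroup, then every language recognized through `φ` has star height at most one. -/
theorem ext_HT [Finite A] [Finite G] (N : Subgroup G) [N.Normal]
    (hN : ∀ x ∈ N, ∀ y ∈ N, x * y = y * x) (φ : A → G)
    (h1 : ∀ (c : A) (l : G ⧸ N), Meas (fun w : List A =>
      ((occ (fun a => (QuotientGroup.mk (φ a) : G ⧸ N)) c l 1 w : ℕ) : ZMod (Nat.card N))))
    (h2 : Meas (fun w : List A => (w.map (fun a => (QuotientGroup.mk (φ a) : G ⧸ N))).prod))
    (S : Set G) : HT 1 ({w : List A | (w.map φ).prod ∈ S} : Set (List A)) := by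
  classical
  have : IsMulCommutative N := ⟨⟨fun x y => Subtype.ext (hN x.1 x.2 y.1 y.2)⟩⟩
  have : NeZero (Nat.card N) := ⟨Nat.card_pos.ne'⟩
  set π : A → G ⧸ N := fun a => (QuotientGroup.mk (φ a) : G ⧸ N) with hπ
  let s : G ⧸ N → G := fun t => Quotient.out t
  have hs : ∀ t, (QuotientGroup.mk (s t) : G ⧸ N) = t := fun t => QuotientGroup.out_eq' t
  have hmem : ∀ t a, s t * φ a * (s (t * π a))⁻¹ ∈ N := by
    intro t a
    rw [← QuotientGroup.eq_one_iff]
    rw [QuotientGroup.mk_mul, QuotientGroup.mk_mul, QuotientGroup.mk_inv, hs, hs]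
    exact mul_inv_cancel _
  let β : G ⧸ N → A → N := fun t a => ⟨s t * φ a * (s (t * π a))⁻¹, hmem t a⟩
  have hβ : ∀ t a, s t * φ a = N.subtype (β t a) * s (t * π a) := by
    intro t a
    simp [β]
  have hM : Meas (fun w : List A => (w.map φ).prod) := by
    have h3 := Meas.pi (fun x : A × (G ⧸ N) => h1 x.1 x.2)
    refine (h3.prodMk h2).of_determined fun w w' h => ?_
    rw [Prod.mk.injEq] at h
    exact ext_determined N.subtype π φ s β hβ w w' (fun c l => congrFun h.1 (c, l)) h.2
  exact hM.mem S

end Final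

end Vale.Agent.P329
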