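import Vale.Agent.P329.Meas

namespace Vale.Agent.P329

section Sub

variable {A : Type} [DecidableEq A]

/-- `sub u w` is the number of occurrences of `u` as a scattered subword of `w`
(the binomial coefficient of words). -/
def sub : List A → List A → ℕ
  | [], _ => 1
  | _ :: _, [] => 0
  | a :: u, x :: w => sub (a :: u) w + if x = a then sub u w else 0

@[simp] theorem sub_nil_left (w : List A) : sub [] w = 1 := by
  cases w <;> rfl

@[simp] theorem sub_cons_nil (a : A) (u : List A) : sub (a :: u) [] = 0 := rfl

theorem sub_cons_cons (a : A) (u : List A) (x : A) (w : List A) :
    sub (a :: u) (x :: w) = sub (a :: u) w + if x = a then sub u w else 0 := rfl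

theorem count_map_cons (x : A) (L : List (List A)) (a : A) (u : List A) :
    (L.map (List.cons x)).count (a :: u) = if x = a then L.count u else 0 := by
  induction L with
  | nil => simp
  | cons l L ih =>
    simp only [List.map_cons, List.count_cons, ih]
    by_cases h : x = a
    · subst h
      simp
    · simp [h]

theorem count_map_cons_nil (x : A) (L : List (List A)) :
    (L.map (List.cons x)).count [] = 0 := by
  induction L with
  | nil => simp
  | cons l L ih =>
    simp only [List.map_cons, List.count_cons, ih]
    simp

/-- T1a. Link with Mathlib: the number of sublists of `w` (counted with their positions) equal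
to `u`. -/
theorem sub_eq_count (u w : List A) : sub u w = (List.sublists w).count u := by
  induction w generalizing u with
  | nil =>
    cases u with
    | nil => simp
    | cons a u => simp
  | cons x w ih =>
    have hperm : (List.sublists (x :: w)).Perm (List.sublists' (x :: w)) :=
      List.sublists_perm_sublists' _
    have hperm2 : (List.sublists w).Perm (List.sublists' w) :=
      List.sublists_perm_sublists' _
    rw [hperm.count_eq, List.sublists'_cons, List.count_append, ← hperm2.count_eq]
    cases u with
    | nil =>
      rw [count_map_cons_nil, ← ih]
      simp
    | cons a u =>
      rw [count_map_cons, ← hperm2.count_eq, sub_cons_cons, ih, ih]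

/-- T1b. Erasing letters which do not occur in `u` does not change `sub u`. -/
theorem sub_filter (p : A → Bool) (u w : List A) (hu : ∀ x ∈ u, p x = true) :
    sub u (w.filter p) = sub u w := by
  induction w generalizing u with
  | nil => simp
  | cons x w ih =>
    cases u with
    | nil => simp
    | cons a u =>
      have hu' : ∀ y ∈ u, p y = true := fun y hy => hu y (List.mem_cons_of_mem _ hy)
      by_cases hx : p x = true
      · rw [List.filter_cons_of_pos hx, sub_cons_cons, sub_cons_cons, ih _ hu, ih _ hu']
      · rw [List.filter_cons_of_neg hx, sub_cons_cons, ih _ hu]
        have : x ≠ a := by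
          intro h
          apply hx
          rw [h]
          exact hu a (List.mem_cons_self)
        simp [this]

end Sub

end Vale.Agent.P329
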