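import Vale.Agent.P329.Rank
import Vale.Agent.P329.Sub

namespace Vale.Agent.P329

section PSum

variable {A : Type} [DecidableEq A]

/-- `psum D b f z w` is the sum, over the occurrences of the letter `b` in `w`, of
`f (z + number of letters of D before that occurrence)`. -/
def psum (D : A → Bool) (b : A) (f : ℕ → ℕ) : ℕ → List A → ℕ
  | _, [] => 0
  | z, x :: w => (if x = b then f z else 0) + psum D b f (if D x then z + 1 else z) w

theorem psum_nil (D : A → Bool) (b : A) (f : ℕ → ℕ) (z : ℕ) : psum D b f z [] = 0 := rfl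

theorem psum_cons (D : A → Bool) (b : A) (f : ℕ → ℕ) (z : ℕ) (x : A) (w : List A) :
    psum D b f z (x :: w) =
      (if x = b then f z else 0) + psum D b f (if D x then z + 1 else z) w := rfl

omit [DecidableEq A] in
theorem uocc_nil (M : ℕ) (D : A → Prop) (b : A) (l t : ZMod M) : uocc M D b l t [] = 0 := rfl

omit [DecidableEq A] in
theorem ustep_pos (M : ℕ) (D : A → Prop) (t : ZMod M) (x : A) (h : D x) :
    ustep M D t x = t + 1 := by
  unfold ustep
  rw [if_pos h]

omit [DecidableEq A] in
theorem ustep_neg (M : ℕ) (D : A → Prop) (t : ZMod M) (x : A) (h : ¬ D x) :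
    ustep M D t x = t := by
  unfold ustep
  rw [if_neg h]

theorem uocc_cons (M : ℕ) (D : A → Prop) (b : A) (l t : ZMod M) (x : A) (w : List A) :
    uocc M D b l t (x :: w) =
      (if x = b ∧ t = l then 1 else 0) + uocc M D b l (ustep M D t x) w := by
  unfold uocc
  rw [cnt_cons]
  congr 1
  by_cases h : x = b ∧ t = l
  · rw [if_pos h, if_pos h]
  · rw [if_neg h, if_neg h]

/-- T3a. Expansion over the levels modulo `M`. -/
theorem psum_eq_sum_uocc (M : ℕ) [NeZero M] (D : A → Bool) (b : A) (f : ℕ → ℕ)
    (hf : ∀ z z', z ≡ z' [MOD M] → f z ≡ f z' [MOD M]) (z : ℕ) (w : List A) :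
    ((psum D b f z w : ℕ) : ZMod M) =
      ∑ l : ZMod M, ((f l.val : ℕ) : ZMod M) *
        ((uocc M (fun x => D x = true) b l (z : ZMod M) w : ℕ) : ZMod M) := by
  classical
  induction w generalizing z with
  | nil => simp [psum_nil, uocc_nil]
  | cons x w ih =>
    rw [psum_cons]
    have hz : ustep M (fun x => D x = true) (z : ZMod M) x =
        (((if D x then z + 1 else z : ℕ)) : ZMod M) := by
      by_cases h : D x = true
      · rw [ustep_pos M (fun x => D x = true) (z : ZMod M) x h]
        simp [h]
      · rw [ustep_neg M (fun x => D x = true) (z : ZMod M) x h]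
        simp [h]
    have hstep : ∀ l : ZMod M, ((f l.val : ℕ) : ZMod M) *
        ((uocc M (fun x => D x = true) b l (z : ZMod M) (x :: w) : ℕ) : ZMod M) =
        (if x = b ∧ (z : ZMod M) = l then ((f l.val : ℕ) : ZMod M) else 0) +
        ((f l.val : ℕ) : ZMod M) * ((uocc M (fun x => D x = true) b l
          (((if D x then z + 1 else z : ℕ)) : ZMod M) w : ℕ) : ZMod M) := by
      intro l
      rw [uocc_cons, hz]
      push_cast
      rw [mul_add]
      congr 1
      split_ifs <;> simp
    rw [Finset.sum_congr rfl (fun l _ => hstep l), Finset.sum_add_distrib, ← ih]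
    push_cast
    congr 1
    by_cases hx : x = b
    · simp only [hx, true_and, if_true]
      rw [Finset.sum_ite_eq]
      simp only [Finset.mem_univ, if_true]
      have h1 : (z : ZMod M).val ≡ z [MOD M] := by
        rw [ZMod.val_natCast]
        exact Nat.mod_modEq z M
      exact ((ZMod.natCast_eq_natCast_iff _ _ _).2 (hf _ _ h1)).symm
    · simp [hx]

/-- T3b. Position sums at a neutral letter are measurable. -/
theorem psum_Meas [Finite A] (M : ℕ) [NeZero M] (D : A → Bool) (b : A) (hb : D b = false)
    (f : ℕ → ℕ) (hf : ∀ z z', z ≡ z' [MOD M] → f z ≡ f z' [MOD M]) :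
    Meas (fun w : List A => ((psum D b f 0 w : ℕ) : ZMod M)) := by
  have hb' : ¬ (D b = true) := by simp [hb]
  have h1 : Meas (fun w : List A => fun l : ZMod M =>
      ((uocc M (fun x => D x = true) b l 0 w : ℕ) : ZMod M)) :=
    Meas.pi (fun l => uocc_Meas M (fun x => D x = true) b hb' l 0 M)
  have h2 := h1.comp (fun v : ZMod M → ZMod M => ∑ l : ZMod M, ((f l.val : ℕ) : ZMod M) * v l)
  have e : (fun w : List A => ((psum D b f 0 w : ℕ) : ZMod M)) =
      (fun w : List A => ∑ l : ZMod M, ((f l.val : ℕ) : ZMod M) *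
        ((uocc M (fun x => D x = true) b l 0 w : ℕ) : ZMod M)) := by
    funext w
    have := psum_eq_sum_uocc M D b f hf 0 w
    simpa using this
  rw [e]
  exact h2

theorem uocc_empty (M : ℕ) (a : A) (w : List A) :
    uocc M (fun _ : A => False) a 0 0 w = w.count a := by
  classical
  induction w with
  | nil => rfl
  | cons x w ih =>
    rw [uocc_cons, ustep_neg M (fun _ : A => False) 0 x (fun h => h), ih, List.count_cons]
    by_cases hx : x = a
    · simp [hx, add_comm]
    · simp [hx]

/-- T3c. Letter counts are measurable (from `tot_Meas`, or from `uocc_Meas` with `D` empty). -/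
theorem count_letter_Meas [Finite A] (M : ℕ) [NeZero M] (a : A) :
    Meas (fun w : List A => ((w.count a : ℕ) : ZMod M)) := by
  have h := uocc_Meas M (fun _ : A => False) a (fun h => h) 0 0 M
  have e : (fun w : List A => ((w.count a : ℕ) : ZMod M)) =
      (fun w : List A => ((uocc M (fun _ : A => False) a 0 0 w : ℕ) : ZMod M)) := by
    funext w
    rw [uocc_empty]
  rw [e]
  exact h

end PSum

end Vale.Agent.P329
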