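import Vale.Agent.P329.Action

namespace Vale.Agent.P329

section Feedback

variable {A Q : Type} (δ : Q → A → Q) (mark : Q → A → Prop)

open Classical in
/-- Number of marked transitions used by the run from `q` on `w`. -/
noncomputable def cnt : Q → List A → ℕ
  | _, [] => 0
  | q, a :: w => (if mark q a then 1 else 0) + cnt (δ q a) w

open Classical in
/-- The automaton with the marked transitions removed (`none` is a sink). -/
noncomputable def pact : Option Q → A → Option Q
  | none, _ => none
  | some q, a => if mark q a then none else some (δ q a)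

@[simp] theorem cnt_nil (q : Q) : cnt δ mark q [] = 0 := rfl

open Classical in
theorem cnt_cons (q : Q) (a : A) (w : List A) :
    cnt δ mark q (a :: w) = (if mark q a then 1 else 0) + cnt δ mark (δ q a) w := rfl

theorem cnt_append (q : Q) (u v : List A) :
    cnt δ mark q (u ++ v) = cnt δ mark q u + cnt δ mark (arun δ q u) v := by
  induction u generalizing q with
  | nil => simp
  | cons a u ih => simp only [List.cons_append, cnt_cons, ih, arun_cons, add_assoc]

theorem pact_none (w : List A) : arun (pact δ mark) none w = none := by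
  induction w with
  | nil => rfl
  | cons a w ih => exact ih

theorem pact_run (q q' : Q) (w : List A) :
    arun (pact δ mark) (some q) w = some q' ↔ cnt δ mark q w = 0 ∧ arun δ q w = q' := by
  classical
  induction w generalizing q with
  | nil => simp
  | cons a w ih =>
    rw [arun_cons, cnt_cons, arun_cons]
    by_cases hm : mark q a
    · have : pact δ mark (some q) a = none := by simp [pact, hm]
      rw [this, pact_none]
      simp [hm]
    · have : pact δ mark (some q) a = some (δ q a) := by simp [pact, hm]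
      rw [this, ih]
      simp [hm]

/-- Words running from `q` to `q'` without any marked transition. -/
def RR (q q' : Q) : Language A := {w | cnt δ mark q w = 0 ∧ arun δ q w = q'}

/-- Words whose run from `q` uses a marked transition exactly once, at the last letter. -/
def EE (q : Q) : Language A :=
  {w | ∃ u a, w = u ++ [a] ∧ cnt δ mark q u = 0 ∧ mark (arun δ q u) a}

/-- The counter-freeness hypothesis on the automaton without its marked transitions. -/
def CounterFree : Prop :=
  ∀ (u : List A) (x : Option Q) (j : ℕ), 0 < j →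
    (fun s => arun (pact δ mark) s u)^[j] x = x → arun (pact δ mark) x u = x

variable {δ mark}

theorem RR_SF [Finite A] [Finite Q] (hcf : CounterFree δ mark) (q q' : Q) :
    HT 0 (RR δ mark q q') := by
  refine HT.of_iff (schutz_action (pact δ mark) hcf (some q) (some q')) fun w => ?_
  exact (pact_run δ mark q q' w).symm

theorem EE_SF [Finite A] [Finite Q] (hcf : CounterFree δ mark) (q : Q) :
    HT 0 (EE δ mark q) := by
  have hU := HT.exists_fintype_of (k := 0) (fun i : Q × A => mark i.1 i.2)
    (fun i => RR δ mark q i.1 * {[i.2]}) (fun i _ => (RR_SF hcf q i.1).mul (HT.letter 0 i.2))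
  refine HT.of_iff hU fun w => ?_
  constructor
  · rintro ⟨u, a, rfl, h0, hm⟩
    exact ⟨(arun δ q u, a), hm, Language.mem_mul.2 ⟨u, ⟨h0, rfl⟩, [a], rfl, rfl⟩⟩
  · rintro ⟨⟨r, a⟩, hm, h⟩
    obtain ⟨u, ⟨h0, hr⟩, x, hx, rfl⟩ := Language.mem_mul.1 h
    have hx' : x = [a] := hx
    subst hx'
    have hr' : arun δ q u = r := hr
    subst hr'
    exact ⟨u, a, rfl, h0, hm⟩

theorem EE_spec {q0 : Q} (hmark : ∀ q a, mark q a → δ q a = q0) {q : Q} {e : List A}
    (he : e ∈ EE δ mark q) (w : List A) :
    cnt δ mark q (e ++ w) = 1 + cnt δ mark q0 w ∧ arun δ q (e ++ w) = arun δ q0 w := by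
  classical
  obtain ⟨u, a, rfl, h0, hm⟩ := he
  have h1 : arun δ q (u ++ [a]) = q0 := by
    rw [arun_append]
    exact hmark _ _ hm
  constructor
  · rw [cnt_append, cnt_append, h0, h1, cnt_cons]
    simp [hm]
  · rw [arun_append, h1]

theorem first_mark (q : Q) (w : List A) (h : cnt δ mark q w ≠ 0) :
    ∃ e w', w = e ++ w' ∧ e ∈ EE δ mark q := by
  classical
  induction w generalizing q with
  | nil => simp at h
  | cons a w ih =>
    by_cases hm : mark q a
    · exact ⟨[a], w, rfl, [], a, rfl, rfl, hm⟩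
    · rw [cnt_cons] at h
      simp only [hm, if_false, zero_add] at h
      obtain ⟨e, w', rfl, u, b, rfl, h0, hb⟩ := ih (δ q a) h
      refine ⟨a :: (u ++ [b]), w', rfl, a :: u, b, rfl, ?_, hb⟩
      rw [cnt_cons]
      simp [hm, h0]

theorem pow_spec {q0 : Q} (hmark : ∀ q a, mark q a → δ q a = q0) (q' : Q) (j : ℕ) (w : List A) :
    w ∈ (EE δ mark q0) ^ j * RR δ mark q0 q' ↔ cnt δ mark q0 w = j ∧ arun δ q0 w = q' := by
  induction j generalizing w with
  | zero =>
    rw [pow_zero, one_mul]
    exact Iff.rfl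
  | succ j ih =>
    rw [pow_succ', mul_assoc, Language.mem_mul]
    constructor
    · rintro ⟨e, he, w', hw', rfl⟩
      obtain ⟨h1, h2⟩ := EE_spec hmark he w'
      obtain ⟨h3, h4⟩ := (ih w').1 hw'
      exact ⟨by omega, by rw [h2, h4]⟩
    · rintro ⟨h1, h2⟩
      have hne : cnt δ mark q0 w ≠ 0 := by omega
      obtain ⟨e, w', rfl, he⟩ := first_mark q0 w hne
      obtain ⟨h3, h4⟩ := EE_spec hmark he w'
      exact ⟨e, he, w', (ih w').2 ⟨by omega, by rw [← h4, h2]⟩, rfl⟩

theorem base_mod {q0 : Q} (hmark : ∀ q a, mark q a → δ q a = q0) (q' : Q) (n : ℕ) [NeZero n]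
    (κ : ZMod n) (w : List A) :
    w ∈ KStar.kstar ((EE δ mark q0) ^ n) * (EE δ mark q0) ^ κ.val * RR δ mark q0 q' ↔
      ((cnt δ mark q0 w : ℕ) : ZMod n) = κ ∧ arun δ q0 w = q' := by
  constructor
  · intro h
    obtain ⟨xy, hxy, z, hz, rfl⟩ := Language.mem_mul.1 h
    obtain ⟨x, hx, y, hy, rfl⟩ := Language.mem_mul.1 hxy
    rw [Language.kstar_eq_iSup_pow, Language.mem_iSup] at hx
    obtain ⟨i, hi⟩ := hx
    rw [← pow_mul] at hi
    have h1 : x ++ y ∈ (EE δ mark q0) ^ (n * i + κ.val) := by
      rw [pow_add]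
      exact Language.mem_mul.2 ⟨x, hi, y, hy, rfl⟩
    obtain ⟨h2, h3⟩ := (pow_spec hmark q' _ _).1 (Language.mem_mul.2 ⟨_, h1, z, hz, rfl⟩)
    refine ⟨?_, h3⟩
    rw [h2]
    simp
  · rintro ⟨h1, h2⟩
    have h3 : cnt δ mark q0 w % n = κ.val := by
      rw [← h1, ZMod.val_natCast]
    have h4 : cnt δ mark q0 w = n * (cnt δ mark q0 w / n) + κ.val := by
      rw [← h3]
      exact (Nat.div_add_mod _ _).symm
    have h5 := (pow_spec hmark q' (n * (cnt δ mark q0 w / n) + κ.val) w).2 ⟨h4, h2⟩
    rw [pow_add, pow_mul] at h5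
    obtain ⟨xy, hxy, z, hz, rfl⟩ := Language.mem_mul.1 h5
    obtain ⟨x, hx, y, hy, rfl⟩ := Language.mem_mul.1 hxy
    refine Language.mem_mul.2 ⟨_, Language.mem_mul.2 ⟨x, ?_, y, hy, rfl⟩, z, hz, rfl⟩
    rw [Language.kstar_eq_iSup_pow, Language.mem_iSup]
    exact ⟨_, hx⟩

/-- The counting lemma: if all marked transitions lead to the same state and the automaton without
the marked transitions is counter-free, then the number of marked transitions modulo `n`, jointly
with the final state, is recognized in star height at most one. -/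
theorem count_HT [Finite A] [Finite Q] (hcf : CounterFree δ mark) {q0 : Q}
    (hmark : ∀ q a, mark q a → δ q a = q0) (n : ℕ) [NeZero n] (q q' : Q) (κ : ZMod n) :
    HT 1 ({w : List A | ((cnt δ mark q w : ℕ) : ZMod n) = κ ∧ arun δ q w = q'} :
      Set (List A)) := by
  have hE : ∀ q, HT 1 (EE δ mark q) := fun q => (EE_SF hcf q).mono (by norm_num)
  have hR : ∀ q q', HT 1 (RR δ mark q q') := fun q q' => (RR_SF hcf q q').mono (by norm_num)
  have hbase : ∀ κ : ZMod n, HT 1 ({w : List A | ((cnt δ mark q0 w : ℕ) : ZMod n) = κ ∧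
      arun δ q0 w = q'} : Set (List A)) := by
    intro κ
    have h := ((((EE_SF hcf q0).pow n).star).mul ((hE q0).pow κ.val)).mul (hR q0 q')
    exact HT.of_iff h fun w => (base_mod hmark q' n κ w).symm
  have hfirst : HT 1 ({w : List A | κ = 0 ∧ w ∈ RR δ mark q q'} : Set (List A)) := by
    by_cases hκ : κ = 0
    · exact HT.of_iff (hR q q') fun w => ⟨fun h => h.2, fun h => ⟨hκ, h⟩⟩
    · exact HT.of_iff (HT.zero 1) fun w => ⟨fun h => absurd h.1 hκ, fun h => absurd h (by simp)⟩
  refine HT.of_iff (hfirst.add ((hE q).mul (hbase (κ - 1)))) fun w => ?_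
  constructor
  · rintro ⟨h1, h2⟩
    by_cases h0 : cnt δ mark q w = 0
    · refine Or.inl ⟨?_, h0, h2⟩
      rw [← h1, h0]
      simp
    · obtain ⟨e, w', rfl, he⟩ := first_mark q w h0
      obtain ⟨h3, h4⟩ := EE_spec hmark he w'
      refine Or.inr (Language.mem_mul.2 ⟨e, he, w', ⟨?_, by rw [← h4, h2]⟩, rfl⟩)
      rw [← h1, h3]
      push_cast
      ring
  · rintro (⟨hκ, h0, h2⟩ | h)
    · refine ⟨?_, h2⟩
      rw [h0, hκ]
      simp
    · obtain ⟨e, he, w', ⟨h1, h2⟩, rfl⟩ := Language.mem_mul.1 h
      obtain ⟨h3, h4⟩ := EE_spec hmark he w'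
      refine ⟨?_, by rw [h4, h2]⟩
      rw [h3]
      push_cast
      rw [h1]
      ring

end Feedback

end Vale.Agent.P329
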