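import Vale.Agent.P329.Nil3

namespace Vale.Agent.P329

section SubFacts

variable {A : Type} [DecidableEq A]

theorem sub_eq_zero_of_notMem (y : A) : ∀ (w u : List A), y ∈ u → y ∉ w → sub u w = 0
  | [], u, hu, _ => by
      cases u with
      | nil => simp at hu
      | cons a u => rfl
  | x :: w, u, hu, hw => by
      cases u with
      | nil => simp at hu
      | cons a u =>
        have hyx : y ≠ x := fun e => hw (by simp [e])
        have hyw : y ∉ w := fun e => hw (by simp [e])
        rw [sub_cons_cons, sub_eq_zero_of_notMem y w (a :: u) hu hyw]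
        by_cases hxa : x = a
        · have hyu : y ∈ u := by
            rcases List.mem_cons.1 hu with e | e
            · exact absurd (e.trans hxa.symm) hyx
            · exact e
          simp [hxa, sub_eq_zero_of_notMem y w u hyu hyw]
        · simp [hxa]

theorem sub_cc (c : A) (w : List A) : sub [c, c] w = (sub [c] w).choose 2 := by
  induction w with
  | nil => simp
  | cons x w ih =>
    rw [sub_cons_cons, sub_cons_cons c []]
    by_cases hx : x = c
    · simp only [hx, if_true, sub_nil_left]
      rw [Nat.choose_succ_succ' (sub [c] w) 1, ih]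
      simp [add_comm]
    · simp [hx, ih]

theorem sub_shuffle_two (c b : A) (hbc : b ≠ c) (w : List A) :
    sub [c, b] w + sub [b, c] w = sub [c] w * sub [b] w := by
  induction w with
  | nil => simp
  | cons x w ih =>
    rw [sub_cons_cons c [b], sub_cons_cons b [c], sub_cons_cons c [], sub_cons_cons b []]
    by_cases hx : x = c
    · subst hx
      have : ¬ x = b := fun e => hbc e.symm
      simp only [if_true, this, if_false, sub_nil_left]
      nlinarith [ih]
    · by_cases hxb : x = b
      · subst hxb
        simp only [if_true, hx, if_false, sub_nil_left]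
        nlinarith [ih]
      · simp [hx, hxb, ih]

end SubFacts

section GroupFacts

variable {G : Type} [Group G]

theorem comm_of_cm_eq_one {X t : G} (h : cm X t = 1) : X * t = t * X := by
  have h' : X⁻¹ * t⁻¹ * X * t = 1 := h
  calc X * t = t * X * (X⁻¹ * t⁻¹ * X * t) := by group
    _ = t * X := by rw [h', mul_one]

theorem cm3_central (h : Cl3 G) (x y z t : G) : cm (cm x y) z * t = t * cm (cm x y) z :=
  comm_of_cm_eq_one (h x y z t)

theorem mul_eq_cm (x y : G) : x * y = y * x * cm x y := by
  unfold cm; group

theorem pow_central {z : G} (hz : ∀ t, z * t = t * z) (n : ℕ) (t : G) : z ^ n * t = t * z ^ n :=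
  ((Commute.pow_left (show Commute z t from hz t) n) : _)

theorem pow_move {u H z : G} (hz : ∀ t, z * t = t * z) (h : u * H = H * u * z) (n : ℕ) :
    u ^ n * H = H * u ^ n * z ^ n := by
  induction n with
  | zero => simp
  | succ n ih =>
    calc u ^ (n + 1) * H = u * (u ^ n * H) := by rw [pow_succ', mul_assoc]
      _ = u * (H * u ^ n * z ^ n) := by rw [ih]
      _ = (u * H) * u ^ n * z ^ n := by simp only [mul_assoc]
      _ = H * u * z * u ^ n * z ^ n := by rw [h]
      _ = H * u * (z * u ^ n) * z ^ n := by simp only [mul_assoc]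
      _ = H * u * (u ^ n * z) * z ^ n := by rw [hz]
      _ = H * (u * u ^ n) * (z * z ^ n) := by simp only [mul_assoc]
      _ = H * u ^ (n + 1) * z ^ (n + 1) := by rw [← pow_succ', ← pow_succ']

theorem pow_eq_of_modEq [Finite G] (x : G) {m n : ℕ} (h : m ≡ n [MOD Nat.card G]) :
    x ^ m = x ^ n :=
  pow_eq_pow_iff_modEq.2 (h.of_dvd (orderOf_dvd_natCard x))

end GroupFacts

section Formula

open scoped IsMulCommutative

theorem prod_update {A M : Type} [DecidableEq A] [CommMonoid M] (T : Finset A) (a : A)
    (ha : a ∈ T) (F F' D : A → M) (hF : ∀ b, F' b = F b * if a = b then D b else 1) :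
    ∏ b ∈ T, F' b = D a * ∏ b ∈ T, F b := by
  simp_rw [hF, Finset.prod_mul_distrib, Finset.prod_ite_eq, if_pos ha, mul_comm]

variable {A G : Type} [DecidableEq A] [Fintype A] [Group G]
variable (K : Subgroup G) [IsMulCommutative K] (hK : ∀ x y : G, cm x y ∈ K) (φ : A → G) (c : A)

def uK (a : A) : K := ⟨cm (φ a) (φ c), hK _ _⟩
def vK (a : A) : K := ⟨cm (cm (φ a) (φ c)) (φ c), hK _ _⟩
def tK (a b : A) : K := ⟨cm (cm (φ a) (φ c)) (φ b), hK _ _⟩

def tau (a : A) (w : List A) : K := ∏ b ∈ Finset.univ.erase c, tK K hK φ c a b ^ sub [b] w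

def Xi (w : List A) : K :=
  (∏ a ∈ Finset.univ.erase c, uK K hK φ c a ^ sub [a, c] w) *
  (∏ a ∈ Finset.univ.erase c, vK K hK φ c a ^ sub [a, c, c] w) *
  (∏ a ∈ Finset.univ.erase c, ∏ b ∈ Finset.univ.erase c,
    tK K hK φ c a b ^ (sub [a, c, b] w + sub [a, b, c] w))

theorem tau_nil (a : A) : tau K hK φ c a [] = 1 := by
  simp [tau]

theorem tau_cons_c (a : A) (w : List A) : tau K hK φ c a (c :: w) = tau K hK φ c a w := by
  unfold tau
  refine Finset.prod_congr rfl fun b hb => ?_
  have hbc : ¬ c = b := fun e => (Finset.ne_of_mem_erase hb) e.symm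
  rw [sub_cons_cons, if_neg hbc, add_zero]

theorem tau_cons_ne (a x : A) (hx : x ≠ c) (w : List A) :
    tau K hK φ c a (x :: w) = tK K hK φ c a x * tau K hK φ c a w := by
  unfold tau
  refine prod_update _ x (Finset.mem_erase.2 ⟨hx, Finset.mem_univ _⟩) _ _ (fun b => tK K hK φ c a b) ?_
  intro b
  rw [sub_cons_cons]
  by_cases hxb : x = b
  · simp [hxb, pow_succ]
  · simp [hxb]

theorem Xi_nil : Xi K hK φ c [] = 1 := by
  simp [Xi]

theorem Xi_cons_c (w : List A) : Xi K hK φ c (c :: w) = Xi K hK φ c w := by
  unfold Xi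
  congr 1
  · congr 1
    · refine Finset.prod_congr rfl fun a ha => ?_
      have hac : ¬ c = a := fun e => (Finset.ne_of_mem_erase ha) e.symm
      rw [sub_cons_cons, if_neg hac, add_zero]
    · refine Finset.prod_congr rfl fun a ha => ?_
      have hac : ¬ c = a := fun e => (Finset.ne_of_mem_erase ha) e.symm
      rw [sub_cons_cons, if_neg hac, add_zero]
  · refine Finset.prod_congr rfl fun a ha => ?_
    refine Finset.prod_congr rfl fun b _ => ?_
    have hac : ¬ c = a := fun e => (Finset.ne_of_mem_erase ha) e.symm
    rw [sub_cons_cons a [c, b], sub_cons_cons a [b, c], if_neg hac, if_neg hac, add_zero, add_zero]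

theorem Xi_cons_ne (a : A) (ha : a ≠ c) (w : List A) :
    Xi K hK φ c (a :: w) = uK K hK φ c a ^ sub [c] w * vK K hK φ c a ^ (sub [c] w).choose 2 *
      tau K hK φ c a w ^ sub [c] w * Xi K hK φ c w := by
  have haT : a ∈ Finset.univ.erase c := Finset.mem_erase.2 ⟨ha, Finset.mem_univ _⟩
  have h1 : ∏ b ∈ Finset.univ.erase c, uK K hK φ c b ^ sub [b, c] (a :: w) =
      uK K hK φ c a ^ sub [c] w * ∏ b ∈ Finset.univ.erase c, uK K hK φ c b ^ sub [b, c] w := by
    refine prod_update _ a haT _ _ (fun b => uK K hK φ c b ^ sub [c] w) ?_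
    intro b
    rw [sub_cons_cons]
    by_cases hab : a = b
    · simp [hab, pow_add]
    · simp [hab]
  have h2 : ∏ b ∈ Finset.univ.erase c, vK K hK φ c b ^ sub [b, c, c] (a :: w) =
      vK K hK φ c a ^ (sub [c] w).choose 2 *
        ∏ b ∈ Finset.univ.erase c, vK K hK φ c b ^ sub [b, c, c] w := by
    refine prod_update _ a haT _ _ (fun b => vK K hK φ c b ^ (sub [c] w).choose 2) ?_
    intro b
    rw [sub_cons_cons]
    by_cases hab : a = b
    · simp [hab, pow_add, sub_cc]
    · simp [hab]
  have h3 : ∏ a' ∈ Finset.univ.erase c, ∏ b ∈ Finset.univ.erase c,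
        tK K hK φ c a' b ^ (sub [a', c, b] (a :: w) + sub [a', b, c] (a :: w)) =
      tau K hK φ c a w ^ sub [c] w * ∏ a' ∈ Finset.univ.erase c, ∏ b ∈ Finset.univ.erase c,
        tK K hK φ c a' b ^ (sub [a', c, b] w + sub [a', b, c] w) := by
    refine prod_update _ a haT _ _ (fun a' => tau K hK φ c a' w ^ sub [c] w) ?_
    intro a'
    by_cases hab : a = a'
    · subst hab
      rw [if_pos rfl]
      unfold tau
      rw [← Finset.prod_pow, ← Finset.prod_mul_distrib]
      refine Finset.prod_congr rfl fun b hb => ?_
      have hbc : b ≠ c := Finset.ne_of_mem_erase hb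
      rw [sub_cons_cons a [c, b], sub_cons_cons a [b, c], if_pos rfl, if_pos rfl, ← pow_mul,
        ← pow_add]
      congr 1
      have := sub_shuffle_two c b hbc w
      nlinarith [this]
    · rw [if_neg hab, mul_one]
      refine Finset.prod_congr rfl fun b _ => ?_
      rw [sub_cons_cons a' [c, b], sub_cons_cons a' [b, c], if_neg hab, if_neg hab, add_zero,
        add_zero]
  unfold Xi
  rw [h1, h2, h3]
  simp only [mul_assoc, mul_comm, mul_left_comm]

theorem tau_central (h : Cl3 G) (a : A) (w : List A) (t : G) :
    (tau K hK φ c a w : G) * t = t * (tau K hK φ c a w : G) := by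
  have hmem : tau K hK φ c a w ∈ (Subgroup.center G).comap K.subtype := by
    unfold tau
    refine Subgroup.prod_mem _ fun b _ => Subgroup.pow_mem _ ?_ _
    rw [Subgroup.mem_comap, Subgroup.mem_center_iff]
    intro g
    exact (cm3_central h _ _ _ g).symm
  rw [Subgroup.mem_comap, Subgroup.mem_center_iff] at hmem
  exact (hmem t).symm

/-- the word with the letter `c` erased -/
def er (c : A) (w : List A) : List A := w.filter (fun x => decide (x ≠ c))

omit [Fintype A] in
theorem er_cons_c (w : List A) : er c (c :: w) = er c w := by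
  simp [er]

omit [Fintype A] in
theorem er_cons_ne (x : A) (hx : x ≠ c) (w : List A) : er c (x :: w) = x :: er c w := by
  simp [er, hx]

theorem move_one (h : Cl3 G) (a : A) (w : List A) :
    cm (φ a) (φ c) * ((er c w).map φ).prod =
      ((er c w).map φ).prod * cm (φ a) (φ c) * (tau K hK φ c a w : G) := by
  induction w with
  | nil => simp [er, tau_nil]
  | cons x w ih =>
    by_cases hx : x = c
    · subst hx
      rw [er_cons_c, tau_cons_c]
      exact ih
    · rw [er_cons_ne c x hx, tau_cons_ne K hK φ c a x hx, List.map_cons, List.prod_cons]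
      set H := ((er c w).map φ).prod with hH
      set u := cm (φ a) (φ c) with hu
      have ht : ((tK K hK φ c a x * tau K hK φ c a w : K) : G) =
          cm u (φ x) * (tau K hK φ c a w : G) := rfl
      rw [ht]
      set T := (tau K hK φ c a w : G) with hT
      have hc : ∀ t, cm u (φ x) * t = t * cm u (φ x) := fun t => cm3_central h _ _ _ t
      calc u * (φ x * H) = (u * φ x) * H := by rw [mul_assoc]
        _ = φ x * u * cm u (φ x) * H := by rw [mul_eq_cm u (φ x)]
        _ = φ x * u * (cm u (φ x) * H) := by simp only [mul_assoc]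
        _ = φ x * u * (H * cm u (φ x)) := by rw [hc]
        _ = φ x * (u * H) * cm u (φ x) := by simp only [mul_assoc]
        _ = φ x * (H * u * T) * cm u (φ x) := by rw [ih]
        _ = φ x * H * u * (T * cm u (φ x)) := by simp only [mul_assoc]
        _ = φ x * H * u * (cm u (φ x) * T) := by rw [hc]

theorem formula (h : Cl3 G) (w : List A) :
    (w.map φ).prod = φ c ^ sub [c] w * ((er c w).map φ).prod * (Xi K hK φ c w : G) := by
  induction w with
  | nil => simp [er, Xi_nil]
  | cons x w ih =>
    by_cases hx : x = c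
    · subst hx
      rw [er_cons_c, Xi_cons_c, List.map_cons, List.prod_cons, ih, sub_cons_cons, if_pos rfl,
        sub_nil_left, pow_succ']
      simp only [mul_assoc]
    · have hcx : ¬ x = c := hx
      rw [er_cons_ne c x hx, Xi_cons_ne K hK φ c x hx, List.map_cons, List.prod_cons, ih,
        List.map_cons, List.prod_cons, sub_cons_cons, if_neg hcx, add_zero]
      set n := sub [c] w with hn
      set H := ((er c w).map φ).prod with hH
      set C := φ c with hC
      set g := φ x with hg
      set u := cm g C with hu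
      set v := cm u C with hv
      set T := (tau K hK φ c x w : G) with hT
      set X := (Xi K hK φ c w : G) with hX
      have hcoe : ((uK K hK φ c x ^ n * vK K hK φ c x ^ n.choose 2 * tau K hK φ c x w ^ n *
          Xi K hK φ c w : K) : G) = u ^ n * v ^ n.choose 2 * T ^ n * X := rfl
      rw [hcoe]
      have hv' : ∀ t, v * t = t * v := fun t => cm3_central h _ _ _ t
      have hT' : ∀ t, T * t = t * T := fun t => tau_central K hK φ c h x w t
      have h1 : g * C ^ n = C ^ n * (g * u ^ n * v ^ n.choose 2) := by
        rw [← conj_pow h g C n]; group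
      have h2 : u ^ n * H = H * u ^ n * T ^ n := pow_move hT' (move_one K hK φ c h x w) n
      calc g * (C ^ n * H * X) = (g * C ^ n) * H * X := by simp only [mul_assoc]
        _ = C ^ n * (g * u ^ n * v ^ n.choose 2) * H * X := by rw [h1]
        _ = C ^ n * g * u ^ n * (v ^ n.choose 2 * H) * X := by simp only [mul_assoc]
        _ = C ^ n * g * u ^ n * (H * v ^ n.choose 2) * X := by rw [pow_central hv']
        _ = C ^ n * g * (u ^ n * H) * v ^ n.choose 2 * X := by simp only [mul_assoc]
        _ = C ^ n * g * (H * u ^ n * T ^ n) * v ^ n.choose 2 * X := by rw [h2]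
        _ = C ^ n * g * H * u ^ n * (T ^ n * v ^ n.choose 2) * X := by simp only [mul_assoc]
        _ = C ^ n * g * H * u ^ n * (v ^ n.choose 2 * T ^ n) * X := by rw [pow_central hT']
        _ = C ^ n * (g * H) * (u ^ n * v ^ n.choose 2 * T ^ n * X) := by simp only [mul_assoc]

theorem Xi_congr [Finite G] (w w' : List A)
    (hs : ∀ u : List A, u.length ≤ 3 → sub u w ≡ sub u w' [MOD Nat.card G]) :
    Xi K hK φ c w = Xi K hK φ c w' := by
  have hp : ∀ (x : K) {m n : ℕ}, m ≡ n [MOD Nat.card G] → x ^ m = x ^ n := by
    intro x m n hmn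
    apply Subtype.ext
    rw [Subgroup.coe_pow, Subgroup.coe_pow]
    exact pow_eq_of_modEq _ hmn
  unfold Xi
  congr 1
  · congr 1
    · exact Finset.prod_congr rfl fun a _ => hp _ (hs _ (by simp))
    · exact Finset.prod_congr rfl fun a _ => hp _ (hs _ (by simp))
  · exact Finset.prod_congr rfl fun a _ => Finset.prod_congr rfl fun b _ =>
      hp _ ((hs _ (by simp)).add (hs _ (by simp)))

omit [Fintype A] in
theorem sub_er (u w : List A) : sub u (er c w) = if c ∈ u then 0 else sub u w := by
  by_cases hcu : c ∈ u
  · rw [if_pos hcu]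
    exact sub_eq_zero_of_notMem c _ _ hcu (by simp [er])
  · rw [if_neg hcu]
    refine sub_filter _ u w fun x hx => ?_
    have : x ≠ c := fun e => hcu (e ▸ hx)
    simpa using this

include hK in
theorem nil3_aux [Finite G] (h : Cl3 G) (S : Finset A) : ∀ (w w' : List A),
    (∀ x ∈ w, x ∈ S) → (∀ x ∈ w', x ∈ S) →
    (∀ u : List A, u.length ≤ 3 → sub u w ≡ sub u w' [MOD Nat.card G]) →
    (w.map φ).prod = (w'.map φ).prod := by
  induction S using Finset.induction_on with
  | empty =>
    intro w w' hw hw' _
    have e1 : w = [] := List.eq_nil_iff_forall_not_mem.2 fun x hx => by simpa using hw x hx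
    have e2 : w' = [] := List.eq_nil_iff_forall_not_mem.2 fun x hx => by simpa using hw' x hx
    rw [e1, e2]
  | insert c S hc ih =>
    intro w w' hw hw' hs
    have hmem : ∀ v : List A, (∀ x ∈ v, x ∈ insert c S) → ∀ x ∈ er c v, x ∈ S := by
      intro v hv x hx
      have hx' : x ∈ v ∧ x ≠ c := by simpa [er] using hx
      rcases Finset.mem_insert.1 (hv x hx'.1) with e | e
      · exact absurd e hx'.2
      · exact e
    have hrec : ((er c w).map φ).prod = ((er c w').map φ).prod := by
      refine ih _ _ (hmem w hw) (hmem w' hw') fun u hu => ?_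
      rw [sub_er, sub_er]
      by_cases hcu : c ∈ u
      · simp only [if_pos hcu]; rfl
      · simp only [if_neg hcu]; exact hs u hu
    rw [formula K hK φ c h w, formula K hK φ c h w', Xi_congr K hK φ c w w' hs, hrec,
      pow_eq_of_modEq _ (hs [c] (by simp))]

end Formula

section Nil3Main

variable {A G : Type} [DecidableEq A] [Group G]

/-- N3 (main group theoretic statement).  In a finite group of class at most three the value of
a word is determined by its scattered subword counts, for subwords of length at most three,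
modulo the order of the group.  Paper proof: notes/P329_blueprint.md. -/
theorem nil3_determined [Finite A] [Finite G] (h : Cl3 G) (φ : A → G) (w w' : List A)
    (hs : ∀ u : List A, u.length ≤ 3 → sub u w ≡ sub u w' [MOD Nat.card G]) :
    (w.map φ).prod = (w'.map φ).prod := by
  cases nonempty_fintype A
  have hcomm : IsMulCommutative (Subgroup.closure {g : G | ∃ x y, g = cm x y}) := by
    refine Subgroup.isMulCommutative_closure ?_
    rintro _ ⟨x, y, rfl⟩ _ ⟨z, t, rfl⟩
    exact cm_comm_cm h x y z t
  exact nil3_aux (Subgroup.closure {g : G | ∃ x y, g = cm x y})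
    (fun x y => Subgroup.subset_closure ⟨x, y, rfl⟩) φ h Finset.univ w w'
    (fun _ _ => Finset.mem_univ _) (fun _ _ => Finset.mem_univ _) hs

end Nil3Main

end Vale.Agent.P329
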