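import Vale.Agent.P329.SubMeas
import Vale.Agent.P329.Nil3b

namespace Vale.Agent.P329

section Final3

variable {A G : Type} [Group G]

/-- Languages recognized by finite groups of class at most three (elementwise form). -/
theorem nil3_HT [Finite A] [Finite G] (h : Cl3 G) (φ : A → G) (S : Set G) :
    HT 1 ({w : List A | (w.map φ).prod ∈ S} : Set (List A)) := by
  classical
  have : NeZero (Nat.card G) := ⟨Nat.card_pos.ne'⟩
  have hfin : Finite {u : List A // u.length ≤ 3} := (List.finite_length_le A 3).to_subtype
  have hM : Meas (fun w : List A => fun u : {u : List A // u.length ≤ 3} =>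
      ((sub u.1 w : ℕ) : ZMod (Nat.card G))) :=
    Meas.pi (fun u => sub_Meas u.1 u.2 (Nat.card G))
  have hM2 : Meas (fun w : List A => (w.map φ).prod) := by
    refine hM.of_determined ?_
    intro w w' hww
    apply nil3_determined h φ w w'
    intro u hu
    have h1 := congrFun hww ⟨u, hu⟩
    exact (ZMod.natCast_eq_natCast_iff _ _ _).1 h1
  exact hM2.mem S

/-- Languages recognized by finite nilpotent groups of class at most three. -/
theorem nilpotent3_HT [Finite A] [Finite G] [Group.IsNilpotent G]
    (hc : Group.nilpotencyClass G ≤ 3) (φ : A → G) (S : Set G) :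
    HT 1 ({w : List A | (w.map φ).prod ∈ S} : Set (List A)) :=
  nil3_HT (cl3_of_bracket (bracket_of_class hc)) φ S

/-- Scattered subword counting for subwords of length at most three. -/
theorem subword3_HT [Finite A] [DecidableEq A] (u : List A) (hu : u.length ≤ 3) (q : ℕ)
    (hq : 0 < q) (r : ℕ) :
    HT 1 ({w : List A | (List.sublists w).count u ≡ r [MOD q]} : Set (List A)) := by
  have : NeZero q := ⟨hq.ne'⟩
  refine HT.of_iff (sub_Meas u hu q (r : ZMod q)) fun w => ?_
  constructor
  · intro h
    have h' : (List.sublists w).count u ≡ r [MOD q] := h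
    show ((sub u w : ℕ) : ZMod q) = (r : ZMod q)
    rw [sub_eq_count]
    exact (ZMod.natCast_eq_natCast_iff _ _ _).2 h'
  · intro h
    have h' : ((sub u w : ℕ) : ZMod q) = (r : ZMod q) := h
    show (List.sublists w).count u ≡ r [MOD q]
    rw [← sub_eq_count]
    exact (ZMod.natCast_eq_natCast_iff _ _ _).1 h'

end Final3

end Vale.Agent.P329
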