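import Vale.Agent.P329.Meas

namespace Vale.Agent.P329

section Level

variable {A T : Type} [Group T] (π : A → T) (l : T) (c : A → Bool)

open Classical in
/-- The level automaton with one bit of memory: the level is the running product in `T`; away
from level `l` the bit remembers the value of `c` at the letter of the last departure from `l`. -/
noncomputable def lstep : T × Bool → A → T × Bool :=
  fun s a => (s.1 * π a,
    if s.1 * π a = l then false else if s.1 = l then c a else s.2)

/-- Marked transitions: those entering level `l`, except the ones singled out by `U`. -/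
def lmark (U : T × Bool → A → Prop) : T × Bool → A → Prop :=
  fun s a => s.1 * π a = l ∧ ¬ U s a

variable {π l c}

theorem lstep_fst (s : T × Bool) (a : A) : (lstep π l c s a).1 = s.1 * π a := rfl

theorem lrun_fst (s : T × Bool) (w : List A) :
    (arun (lstep π l c) s w).1 = s.1 * (w.map π).prod := by
  induction w generalizing s with
  | nil => simp
  | cons a w ih => rw [arun_cons, ih, lstep_fst]; simp [mul_assoc]

theorem lmark_target (U : T × Bool → A → Prop) (s : T × Bool) (a : A) (h : lmark π l U s a) :
    lstep π l c s a = (l, false) := by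
  have h1 : s.1 * π a = l := h.1
  simp [lstep, h1]

theorem lstep_off {s : T × Bool} {a : A} (h1 : s.1 ≠ l) (h2 : s.1 * π a ≠ l) :
    lstep π l c s a = (s.1 * π a, s.2) := by
  simp [lstep, h1, h2]

theorem lstep_dep {s : T × Bool} {a : A} (h1 : s.1 = l) (h2 : s.1 * π a ≠ l) :
    lstep π l c s a = (s.1 * π a, c a) := by
  unfold lstep
  rw [if_neg h2, if_pos h1]

/-- The memory after a run is either the initial memory or independent of it. -/
theorem lrun_mem (w : List A) (t : T) :
    (∀ μ, (arun (lstep π l c) (t, μ) w).2 = μ) ∨
      (∀ μ μ', (arun (lstep π l c) (t, μ) w).2 = (arun (lstep π l c) (t, μ') w).2) := by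
  induction w generalizing t with
  | nil => exact Or.inl fun μ => rfl
  | cons a w ih =>
    by_cases h2 : t * π a = l
    · refine Or.inr fun μ μ' => ?_
      have e : ∀ μ, lstep π l c (t, μ) a = (l, false) := fun μ => by simp [lstep, h2]
      rw [arun_cons, arun_cons, e, e]
    · by_cases h1 : t = l
      · refine Or.inr fun μ μ' => ?_
        have e : ∀ μ, lstep π l c (t, μ) a = (t * π a, c a) :=
          fun μ => lstep_dep (s := (t, μ)) h1 h2
        rw [arun_cons, arun_cons, e, e]
      · have e : ∀ μ, lstep π l c (t, μ) a = (t * π a, μ) :=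
          fun μ => lstep_off (s := (t, μ)) h1 h2
        rcases ih (t * π a) with h | h
        · refine Or.inl fun μ => ?_
          rw [arun_cons, e, h]
        · refine Or.inr fun μ μ' => ?_
          rw [arun_cons, arun_cons, e, e]
          exact h μ μ'

/-- Neutral letters do not change a state away from level `l`. -/
theorem lrun_neutral_off {s : T × Bool} (h1 : s.1 ≠ l) (b : List A) (hb : ∀ x ∈ b, π x = 1) :
    arun (lstep π l c) s b = s := by
  induction b with
  | nil => rfl
  | cons x b ih =>
    have hx : π x = 1 := hb x (by simp)
    have e : lstep π l c s x = s := by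
      rw [lstep_off h1 (by rw [hx, mul_one]; exact h1), hx, mul_one]
    rw [arun_cons, e]
    exact ih fun y hy => hb y (List.mem_cons_of_mem _ hy)

theorem prod_neutral (b : List A) (hb : ∀ x ∈ b, π x = 1) : (b.map π).prod = 1 := by
  induction b with
  | nil => rfl
  | cons x b ih =>
    rw [List.map_cons, List.prod_cons, hb x (by simp), one_mul]
    exact ih fun y hy => hb y (List.mem_cons_of_mem _ hy)

theorem exists_first_nonneutral (u : List A) (h : (u.map π).prod ≠ 1) :
    ∃ b a u', u = b ++ a :: u' ∧ (∀ x ∈ b, π x = 1) ∧ π a ≠ 1 := by
  induction u with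
  | nil => simp at h
  | cons x u ih =>
    by_cases hx : π x = 1
    · rw [List.map_cons, List.prod_cons, hx, one_mul] at h
      obtain ⟨b, a, u', rfl, hb, ha⟩ := ih h
      refine ⟨x :: b, a, u', rfl, ?_, ha⟩
      intro y hy
      rcases List.mem_cons.1 hy with rfl | hy
      · exact hx
      · exact hb y hy
    · exact ⟨[], x, u, rfl, by simp, hx⟩

/-- Away from `l`, with the wrong memory, an unmarked run never reaches `l`. -/
theorem lrun_wrong_mem {U : T × Bool → A → Prop} {β : Bool} {Pe : A → Prop}
    (hU : ∀ s a, s.1 ≠ l → U s a → s.2 = β ∧ Pe a) (v : List A) (s : T × Bool)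
    (h1 : s.1 ≠ l) (h2 : s.2 ≠ β) (h0 : cnt (lstep π l c) (lmark π l U) s v = 0) :
    (arun (lstep π l c) s v).1 ≠ l ∧ (arun (lstep π l c) s v).2 = s.2 := by
  classical
  induction v generalizing s with
  | nil => exact ⟨h1, rfl⟩
  | cons a v ih =>
    rw [cnt_cons] at h0
    have hm : ¬ lmark π l U s a := by
      intro hm
      simp [hm] at h0
    have h0' : cnt (lstep π l c) (lmark π l U) (lstep π l c s a) v = 0 := by omega
    have h3 : s.1 * π a ≠ l := by
      intro h3
      apply hm
      exact ⟨h3, fun hu => h2 (hU s a h1 hu).1⟩
    have e := lstep_off (c := c) h1 h3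
    rw [arun_cons]
    have := ih (lstep π l c s a) (by rw [e]; exact h3) (by rw [e]; exact h2) h0'
    rw [e] at this ⊢
    exact this

theorem iter_some {Q : Type} (δ : Q → A → Q) (mark : Q → A → Prop) (u : List A) (q : Q) :
    ∀ (i : ℕ) (q' : Q), (fun s => arun (pact δ mark) s u)^[i] (some q) = some q' →
      q' = (fun s => arun δ s u)^[i] q ∧
        ∀ i' < i, cnt δ mark ((fun s => arun δ s u)^[i'] q) u = 0 := by
  intro i
  induction i with
  | zero =>
    intro q' h
    simp only [Function.iterate_zero, id_eq, Option.some.injEq] at h
    exact ⟨h.symm, fun i' hi' => absurd hi' (by omega)⟩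
  | succ i ih =>
    intro q' h
    rw [Function.iterate_succ_apply'] at h
    cases hx : (fun s => arun (pact δ mark) s u)^[i] (some q) with
    | none =>
      rw [hx] at h
      simp only [pact_none] at h
      exact absurd h (by simp)
    | some q'' =>
      rw [hx] at h
      obtain ⟨h1, h2⟩ := ih q'' hx
      obtain ⟨h3, h4⟩ := (pact_run δ mark q'' q' u).1 h
      refine ⟨?_, ?_⟩
      · rw [Function.iterate_succ_apply', ← h1, ← h4]
      · intro i' hi'
        rcases Nat.lt_succ_iff_lt_or_eq.1 hi' with hlt | rfl
        · exact h2 i' hlt
        · rw [← h1]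
          exact h3

theorem level_counterFree (hgen : ∀ d : T, d ≠ 1 → ∀ t : T, ∃ i : ℕ, d ^ i = t)
    {U : T × Bool → A → Prop} {β : Bool} {Pe : A → Prop}
    (hU : ∀ s a, s.1 ≠ l → U s a → s.2 = β ∧ Pe a)
    (hPe : ∀ a, c a = β → ¬ Pe a) :
    CounterFree (lstep π l c) (lmark π l U) := by
  classical
  intro u x j hj hx
  cases x with
  | none => exact pact_none _ _ _
  | some q =>
    obtain ⟨hper, hc0⟩ := iter_some _ _ u q j q hx
    set g : T × Bool → T × Bool := fun s => arun (lstep π l c) s u with hg
    have hperiodic : Function.IsPeriodicPt g j q := hper.symm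
    have hall : ∀ i, cnt (lstep π l c) (lmark π l U) (g^[i] q) u = 0 := by
      intro i
      rw [← hperiodic.iterate_mod_apply i]
      exact hc0 _ (Nat.mod_lt _ hj)
    have hlev : ∀ i, (g^[i] q).1 = q.1 * ((u.map π).prod) ^ i := by
      intro i
      induction i with
      | zero => simp
      | succ i ih =>
        rw [Function.iterate_succ_apply', hg]
        simp only
        rw [lrun_fst, ih, pow_succ, mul_assoc]
    refine (pact_run _ _ q q u).2 ⟨hall 0, ?_⟩
    by_cases hd : (u.map π).prod = 1
    · have h1 : (arun (lstep π l c) q u).1 = q.1 := by rw [lrun_fst, hd, mul_one]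
      rcases lrun_mem (π := π) (l := l) (c := c) u q.1 with h | h
      · exact Prod.ext h1 (h q.2)
      · obtain ⟨j', rfl⟩ : ∃ j', j = j' + 1 := ⟨j - 1, by omega⟩
        have h2 : g (g^[j'] q) = q := by
          rw [← Function.iterate_succ_apply' g j' q]
          exact hper.symm
        have h3 : (g^[j'] q).1 = q.1 := by rw [hlev, hd, one_pow, mul_one]
        have h4 : g^[j'] q = (q.1, (g^[j'] q).2) := Prod.ext h3 rfl
        refine Prod.ext h1 ?_
        have h5 := h q.2 (g^[j'] q).2
        rw [← h4] at h5
        calc (arun (lstep π l c) q u).2 = (arun (lstep π l c) (g^[j'] q) u).2 := h5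
          _ = q.2 := by
            have : arun (lstep π l c) (g^[j'] q) u = q := h2
            rw [this]
    · exfalso
      obtain ⟨b, a, u', hu, hb, ha⟩ := exists_first_nonneutral u hd
      obtain ⟨i, hi⟩ := hgen _ hd (q.1⁻¹ * l)
      obtain ⟨i', hi'⟩ := hgen _ hd (q.1⁻¹ * (l * (π a)⁻¹))
      have hli : (g^[i] q).1 = l := by rw [hlev, hi]; group
      have hli' : (g^[i'] q).1 = l * (π a)⁻¹ := by rw [hlev, hi']; group
      -- departure from level l by the letter a
      have hβ : c a = β := by
        by_contra hne
        have h0 := hall i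
        rw [hu, cnt_append, cnt_cons] at h0
        set s := arun (lstep π l c) (g^[i] q) b with hs
        have hs1 : s.1 = l := by rw [hs, lrun_fst, prod_neutral b hb, mul_one, hli]
        have hs2 : s.1 * π a ≠ l := by
          rw [hs1]
          intro h
          exact ha (by simpa using h)
        have e := lstep_dep (c := c) hs1 hs2
        have h0' : cnt (lstep π l c) (lmark π l U) (lstep π l c s a) u' = 0 := by omega
        have hstep : ∀ m, (g^[i + 1 + m] q).1 ≠ l ∧ (g^[i + 1 + m] q).2 = c a := by
          intro m
          induction m with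
          | zero =>
            have hrun : g^[i + 1] q = arun (lstep π l c) (lstep π l c s a) u' := by
              rw [Function.iterate_succ_apply']
              show arun (lstep π l c) (g^[i] q) u = _
              rw [hu, arun_append, arun_cons]
            have := lrun_wrong_mem hU u' (lstep π l c s a) (by rw [e]; exact hs2)
              (by rw [e]; exact hne) h0'
            rw [add_zero, hrun]
            rw [e] at this ⊢
            exact this
          | succ m ih =>
            have hrun : g^[i + 1 + (m + 1)] q = arun (lstep π l c) (g^[i + 1 + m] q) u := by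
              rw [← add_assoc, Function.iterate_succ_apply']
            have := lrun_wrong_mem hU u (g^[i + 1 + m] q) ih.1 (by rw [ih.2]; exact hne)
              (hall _)
            rw [hrun]
            exact ⟨this.1, by rw [this.2, ih.2]⟩
        obtain ⟨j', rfl⟩ : ∃ j', j = j' + 1 := ⟨j - 1, by omega⟩
        have hback : g^[i + 1 + j'] q = g^[i] q := by
          rw [show i + 1 + j' = i + (j' + 1) by omega, Function.iterate_add_apply]
          rw [show g^[j' + 1] q = q from hper.symm]
        exact (hstep j').1 (by rw [hback, hli])
      -- arrival at level l by the letter a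
      have h0 := hall i'
      rw [hu, cnt_append, cnt_cons] at h0
      have hoff : (g^[i'] q).1 ≠ l := by
        rw [hli']
        intro h
        exact ha (by simpa using h)
      rw [lrun_neutral_off hoff b hb] at h0
      have hm : ¬ lmark π l U (g^[i'] q) a := by
        intro hm
        simp [hm] at h0
      apply hm
      refine ⟨by rw [hli']; group, fun hu' => ?_⟩
      exact hPe a hβ (hU _ _ hoff hu').2

end Level

end Vale.Agent.P329
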