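import Vale.Agent.P329.Closure

namespace Vale.Agent.P329

section LocalDivisor

variable {M : Type} [Monoid M]

/-- The local divisor of a monoid `M` at `c`: carrier `cM ∩ Mc`. -/
def LD (c : M) : Type := {x : M // (∃ y, x = c * y) ∧ (∃ z, x = z * c)}

namespace LD

variable {c : M}

noncomputable def mul' (x y : LD c) : LD c :=
  ⟨Classical.choose x.2.2 * y.1, by
    obtain ⟨y1, hy1⟩ := y.2.1
    obtain ⟨y2, hy2⟩ := y.2.2
    obtain ⟨x1, hx1⟩ := x.2.1
    have hx := Classical.choose_spec x.2.2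
    constructor
    · refine ⟨x1 * y1, ?_⟩
      calc Classical.choose x.2.2 * y.1 = (Classical.choose x.2.2 * c) * y1 := by
            rw [hy1, mul_assoc]
        _ = x.1 * y1 := by rw [← hx]
        _ = c * (x1 * y1) := by rw [hx1, mul_assoc]
    · refine ⟨Classical.choose x.2.2 * y2, ?_⟩
      calc Classical.choose x.2.2 * y.1 = Classical.choose x.2.2 * (y2 * c) := by rw [← hy2]
        _ = Classical.choose x.2.2 * y2 * c := by rw [mul_assoc]⟩

theorem mul'_val (x y : LD c) (a : M) (h : x.1 = a * c) : (mul' x y).1 = a * y.1 := by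
  obtain ⟨y1, hy1⟩ := y.2.1
  have hx := Classical.choose_spec x.2.2
  calc Classical.choose x.2.2 * y.1 = (Classical.choose x.2.2 * c) * y1 := by
        rw [hy1, mul_assoc]
    _ = x.1 * y1 := by rw [← hx]
    _ = a * y.1 := by rw [h, hy1, mul_assoc]

def one' : LD c := ⟨c, ⟨1, by simp⟩, ⟨1, by simp⟩⟩

noncomputable instance : Monoid (LD c) where
  mul := mul'
  one := one'
  mul_assoc x y z := by
    obtain ⟨a, ha⟩ := x.2.2
    obtain ⟨b, hb⟩ := y.2.2
    apply Subtype.ext
    have h1 : (mul' x y).1 = a * y.1 := mul'_val x y a ha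
    have h2 : (mul' x y).1 = (a * b) * c := by rw [h1, hb, mul_assoc]
    have h3 : (mul' (mul' x y) z).1 = (a * b) * z.1 := mul'_val _ z _ h2
    have h4 : (mul' y z).1 = b * z.1 := mul'_val y z b hb
    have h5 : (mul' x (mul' y z)).1 = a * (mul' y z).1 := mul'_val x _ a ha
    show (mul' (mul' x y) z).1 = (mul' x (mul' y z)).1
    rw [h3, h5, h4, mul_assoc]
  one_mul x := by
    apply Subtype.ext
    have : (mul' one' x).1 = 1 * x.1 := mul'_val one' x 1 (by simp [one'])
    show (mul' one' x).1 = x.1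
    rw [this, one_mul]
  mul_one x := by
    obtain ⟨a, ha⟩ := x.2.2
    apply Subtype.ext
    have : (mul' x one').1 = a * (one' : LD c).1 := mul'_val x one' a ha
    show (mul' x one').1 = x.1
    rw [this, ha]
    rfl

theorem mul_val (x y : LD c) (a : M) (h : x.1 = a * c) : (x * y).1 = a * y.1 :=
  mul'_val x y a h

theorem one_val : (1 : LD c).1 = c := rfl

theorem pow_val (x : LD c) (a : M) (h : x.1 = a * c) (n : ℕ) : (x ^ n).1 = a ^ n * c := by
  induction n with
  | zero => simp [one_val]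
  | succ n ih => rw [pow_succ', mul_val x _ a h, ih, pow_succ', mul_assoc]

theorem aperiodic (hM : ∀ x : M, ∃ k, x ^ k = x ^ (k + 1)) (x : LD c) :
    ∃ k, x ^ k = x ^ (k + 1) := by
  obtain ⟨a, ha⟩ := x.2.2
  obtain ⟨k, hk⟩ := hM a
  refine ⟨k, Subtype.ext ?_⟩
  rw [pow_val x a ha, pow_val x a ha, ← hk]

instance [Finite M] : Finite (LD c) := by
  unfold LD
  infer_instance

end LD

/-- In an aperiodic monoid, `x * y = 1` forces `x = 1`. -/
theorem eq_one_of_mul_eq_one (hM : ∀ x : M, ∃ k, x ^ k = x ^ (k + 1)) {x y : M}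
    (h : x * y = 1) : x = 1 := by
  have hp : ∀ n : ℕ, x ^ n * y ^ n = 1 := by
    intro n
    induction n with
    | zero => simp
    | succ n ih =>
      calc x ^ (n + 1) * y ^ (n + 1) = x * (x ^ n * y ^ n) * y := by
            rw [pow_succ' x, pow_succ y]; simp only [mul_assoc]
        _ = 1 := by rw [ih, mul_one, h]
  obtain ⟨k, hk⟩ := hM x
  calc x = x * (x ^ k * y ^ k) := by rw [hp, mul_one]
    _ = x ^ (k + 1) * y ^ k := by rw [pow_succ', mul_assoc]
    _ = 1 := by rw [← hk, hp]

theorem LD.card_lt [Finite M] (hM : ∀ x : M, ∃ k, x ^ k = x ^ (k + 1)) {c : M} (hc : c ≠ 1) :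
    Nat.card (LD c) < Nat.card M := by
  have hinj : Function.Injective (fun x : LD c => x.1) := Subtype.val_injective
  have hns : ¬ Function.Surjective (fun x : LD c => x.1) := by
    intro hs
    obtain ⟨x, hx⟩ := hs 1
    obtain ⟨y, hy⟩ := x.2.1
    apply hc
    apply eq_one_of_mul_eq_one hM (y := y)
    rw [← hy]
    exact hx
  have := Fintype.ofFinite M
  have := Fintype.ofFinite (LD c)
  rw [Nat.card_eq_fintype_card, Nat.card_eq_fintype_card]
  exact Fintype.card_lt_of_injective_not_surjective _ hinj hns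

end LocalDivisor

end Vale.Agent.P329
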