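import Vale.Agent.P329.Feedback

namespace Vale.Agent.P329

section Meas

variable {A : Type}

/-- A word statistic all of whose fibres have star height at most one. -/
def Meas {X : Type*} (f : List A → X) : Prop :=
  ∀ x, HT 1 ({w : List A | f w = x} : Set (List A))

theorem Meas.of_determined {X Y : Type*} [Finite X] {f : List A → X} (hf : Meas f)
    {h : List A → Y} (hd : ∀ w w', f w = f w' → h w = h w') : Meas h := by
  intro y
  have hU := HT.exists_fintype_of (k := 1) (fun x : X => ∃ w0, f w0 = x ∧ h w0 = y)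
    (fun x => ({w : List A | f w = x} : Set (List A))) (fun x _ => hf x)
  refine HT.of_iff hU fun w => ?_
  constructor
  · intro hw
    exact ⟨f w, ⟨w, rfl, hw⟩, rfl⟩
  · rintro ⟨x, ⟨w0, h1, h2⟩, hw⟩
    have hw' : f w = x := hw
    show h w = y
    rw [← h2]
    exact hd _ _ (hw'.trans h1.symm)

theorem Meas.comp {X Y : Type*} [Finite X] {f : List A → X} (hf : Meas f) (g : X → Y) :
    Meas (fun w => g (f w)) :=
  hf.of_determined fun _ _ h => by rw [h]

theorem Meas.prodMk {X Y : Type*} {f : List A → X} {g : List A → Y} (hf : Meas f) (hg : Meas g) :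
    Meas (fun w => (f w, g w)) := by
  rintro ⟨x, y⟩
  refine HT.of_iff ((hf x).inf (hg y)) fun w => ?_
  constructor
  · intro h
    have h' : (f w, g w) = (x, y) := h
    rw [Prod.mk.injEq] at h'
    exact ⟨h'.1, h'.2⟩
  · rintro ⟨h1, h2⟩
    have h1' : f w = x := h1
    have h2' : g w = y := h2
    show (f w, g w) = (x, y)
    rw [h1', h2']

theorem Meas.pi {ι : Type*} [Finite ι] {X : ι → Type*} {f : ∀ i, List A → X i}
    (hf : ∀ i, Meas (f i)) : Meas (fun w => fun i => f i w) := by
  intro x
  refine HT.of_iff (HT.forall_fintype (fun i => ({w : List A | f i w = x i} : Set (List A)))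
    (fun i => hf i (x i))) fun w => ?_
  constructor
  · intro h i
    have h' : (fun i => f i w) = x := h
    show f i w = x i
    rw [← h']
  · intro h
    show (fun i => f i w) = x
    funext i
    exact h i

theorem Meas.mem {X : Type*} [Finite X] {f : List A → X} (hf : Meas f) (S : Set X) :
    HT 1 ({w : List A | f w ∈ S} : Set (List A)) := by
  have hU := HT.exists_fintype_of (k := 1) (fun x : X => x ∈ S)
    (fun x => ({w : List A | f w = x} : Set (List A))) (fun x _ => hf x)
  refine HT.of_iff hU fun w => ?_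
  constructor
  · intro hw
    exact ⟨f w, hw, rfl⟩
  · rintro ⟨x, hx, hw⟩
    have hw' : f w = x := hw
    show f w ∈ S
    rw [hw']
    exact hx

theorem count_Meas [Finite A] {Q : Type} [Finite Q] {δ : Q → A → Q} {mark : Q → A → Prop}
    (hcf : CounterFree δ mark) {q0 : Q} (hmark : ∀ q a, mark q a → δ q a = q0) (n : ℕ) [NeZero n]
    (q : Q) : Meas (fun w : List A => (((cnt δ mark q w : ℕ) : ZMod n), arun δ q w)) := by
  rintro ⟨κ, q'⟩
  refine HT.of_iff (count_HT hcf hmark n q q' κ) fun w => ?_
  constructor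
  · intro h
    have h' : (((cnt δ mark q w : ℕ) : ZMod n), arun δ q w) = (κ, q') := h
    rw [Prod.mk.injEq] at h'
    exact h'
  · rintro ⟨h1, h2⟩
    show (((cnt δ mark q w : ℕ) : ZMod n), arun δ q w) = (κ, q')
    rw [h1, h2]

end Meas

end Vale.Agent.P329
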