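import Vale.Agent.P329.Sub
import Mathlib.GroupTheory.Nilpotent

namespace Vale.Agent.P329

section Nil3

open scoped commutatorElement

variable {G : Type} [Group G]

/-- the commutator `x⁻¹ y⁻¹ x y` -/
def cm (x y : G) : G := x⁻¹ * y⁻¹ * x * y

/-- Class at most three, elementwise. -/
def Cl3 (G : Type) [Group G] : Prop := ∀ x y z t : G, cm (cm (cm x y) z) t = 1

theorem cm_eq_one_iff (a b : G) : cm a b = 1 ↔ a * b = b * a := by
  unfold cm
  constructor
  · intro h
    have : b * a * (a⁻¹ * b⁻¹ * a * b) = b * a := by rw [h, mul_one]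
    rw [← this]; group
  · intro h
    have : a⁻¹ * b⁻¹ * a * b = a⁻¹ * b⁻¹ * (a * b) := by group
    rw [this, h]; group

theorem cm_eq_bracket (a b : G) : cm a b = ⁅a⁻¹, b⁻¹⁆ := by
  unfold cm
  rw [commutatorElement_def]; group

/-- N0. From the Mathlib commutator. -/
theorem cl3_of_bracket (h : ∀ x y z t : G, ⁅⁅⁅x, y⁆, z⁆, t⁆ = 1) : Cl3 G := by
  intro x y z t
  rw [cm_eq_one_iff]
  have hc : ∀ a b c d : G, ⁅⁅a, b⁆, c⁆ * d = d * ⁅⁅a, b⁆, c⁆ := by
    intro a b c d
    have := h a b c d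
    rw [commutatorElement_eq_one_iff_mul_comm] at this
    exact this
  have e : cm (cm x y) z = ⁅⁅y⁻¹, x⁻¹⁆, z⁻¹⁆ := by
    rw [cm_eq_bracket, cm_eq_bracket, commutatorElement_inv]
  rw [e]
  exact hc _ _ _ _

/-- N0'. From the Mathlib nilpotency class. -/
theorem bracket_of_class [Group.IsNilpotent G] (h : Group.nilpotencyClass G ≤ 3) :
    ∀ x y z t : G, ⁅⁅⁅x, y⁆, z⁆, t⁆ = 1 := by
  intro x y z t
  have h3 : (⊤ : Subgroup G).lowerCentralSeries 3 = ⊥ :=
    Subgroup.lowerCentralSeries_eq_bot_iff_nilpotencyClass_le.mpr h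
  have m0 : ∀ g : G, g ∈ (⊤ : Subgroup G).lowerCentralSeries 0 := by
    intro g; rw [Subgroup.lowerCentralSeries_zero]; exact Subgroup.mem_top g
  have step : ∀ (n : ℕ) (a b : G), a ∈ (⊤ : Subgroup G).lowerCentralSeries n →
      ⁅a, b⁆ ∈ (⊤ : Subgroup G).lowerCentralSeries (n + 1) := by
    intro n a b ha
    rw [Subgroup.lowerCentralSeries_succ]
    exact Subgroup.commutator_mem_commutator ha (Subgroup.mem_top b)
  have : ⁅⁅⁅x, y⁆, z⁆, t⁆ ∈ (⊤ : Subgroup G).lowerCentralSeries 3 :=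
    step 2 _ _ (step 1 _ _ (step 0 _ _ (m0 x)))
  rw [h3] at this
  exact Subgroup.mem_bot.mp this

/-- double commutators are central -/
theorem Cl3.central (h : Cl3 G) (x y z t : G) : cm (cm x y) z * t = t * cm (cm x y) z :=
  (cm_eq_one_iff _ _).mp (h x y z t)

theorem conj_eq_mul_cm (g C : G) : C⁻¹ * g * C = g * cm g C := by
  unfold cm; group

theorem cm_mul_right (h : Cl3 G) (x y g k : G) :
    cm (cm x y) (g * k) = cm (cm x y) g * cm (cm x y) k := by
  have hc := h.central x y g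
  set n := cm x y with hn
  have e1 : cm n (g * k) = n⁻¹ * k⁻¹ * n * (cm n g * k) := by unfold cm; group
  rw [e1, hc k]
  have e2 : n⁻¹ * k⁻¹ * n * (k * cm n g) = cm n k * cm n g := by
    conv_rhs => rw [show cm n k = n⁻¹ * k⁻¹ * n * k from rfl]
    group
  rw [e2]
  exact (hc (cm n k)).symm ▸ rfl

theorem cm_one_right (a : G) : cm a 1 = 1 := by unfold cm; group

theorem cm_inv_right (h : Cl3 G) (x y g : G) :
    cm (cm x y) g⁻¹ = (cm (cm x y) g)⁻¹ := by
  have := cm_mul_right h x y g g⁻¹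
  rw [mul_inv_cancel, cm_one_right] at this
  exact (inv_eq_of_mul_eq_one_right this.symm).symm

/-- N2. Commutators commute with each other. -/
theorem cm_comm_cm (h : Cl3 G) (x y z t : G) : cm x y * cm z t = cm z t * cm x y := by
  rw [← cm_eq_one_iff]
  have e : cm z t = z⁻¹ * t⁻¹ * z * t := rfl
  rw [e, cm_mul_right h, cm_mul_right h, cm_mul_right h, cm_inv_right h, cm_inv_right h]
  have hc := h.central x y z
  set a := cm (cm x y) z
  set b := cm (cm x y) t
  have : a⁻¹ * b⁻¹ * a * b = a⁻¹ * (b⁻¹ * a) * b := by group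
  rw [this, ← hc b⁻¹]
  group

theorem Cl3.central_pow (h : Cl3 G) (x y z t : G) (n : ℕ) :
    cm (cm x y) z ^ n * t = t * cm (cm x y) z ^ n :=
  ((Commute.pow_left (h.central x y z t : Commute _ _) n) : _)

/-- N1. Conjugation by a power: `C^(-z) g C^z = g [g,C]^z [g,C,C]^(z choose 2)`. -/
theorem conj_pow (h : Cl3 G) (g C : G) (z : ℕ) :
    (C ^ z)⁻¹ * g * C ^ z = g * cm g C ^ z * cm (cm g C) C ^ (z.choose 2) := by
  induction z with
  | zero => simp
  | succ z ih =>
    have hv : ∀ t : G, Commute (cm (cm g C) C) t := fun t => h.central g C C t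
    set u := cm g C with hu
    set v := cm u C with hv'
    have e1 : (C ^ (z + 1))⁻¹ * g * C ^ (z + 1) = C⁻¹ * ((C ^ z)⁻¹ * g * C ^ z) * C := by
      rw [pow_succ]; group
    rw [e1, ih]
    have e3 : (C⁻¹ * u * C) ^ z = C⁻¹ * u ^ z * C := by
      have := _root_.conj_pow (a := C⁻¹) (b := u) (i := z)
      simpa using this
    have e2 : C⁻¹ * (g * u ^ z * v ^ z.choose 2) * C
        = (C⁻¹ * g * C) * (C⁻¹ * u * C) ^ z * (C⁻¹ * v ^ z.choose 2 * C) := by
      rw [e3]; group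
    have e4 : C⁻¹ * v ^ z.choose 2 * C = v ^ z.choose 2 := by
      have : Commute (v ^ z.choose 2) C := (hv C).pow_left _
      rw [mul_assoc, this.eq]; group
    have e5 : (u * v) ^ z = u ^ z * v ^ z := ((hv u).symm).mul_pow z
    rw [e2, e4, conj_eq_mul_cm, conj_eq_mul_cm, ← hu, ← hv', e5]
    have e6 : (z + 1).choose 2 = z + z.choose 2 := by
      rw [Nat.choose_succ_succ' z 1, Nat.choose_one_right]
    rw [e6, pow_add v, pow_succ' u z]
    simp only [mul_assoc]

end Nil3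

end Vale.Agent.P329
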