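import Vale.Agent.P329.Level

namespace Vale.Agent.P329

section CntGeneral

variable {A Q Q' : Type}

theorem cnt_proj {δ' : Q' → A → Q'} {mark' : Q' → A → Prop} {δ : Q → A → Q}
    {mark : Q → A → Prop} (proj : Q' → Q) (h1 : ∀ s a, proj (δ' s a) = δ (proj s) a)
    (h2 : ∀ s a, mark' s a ↔ mark (proj s) a) (s : Q') (w : List A) :
    cnt δ' mark' s w = cnt δ mark (proj s) w := by
  classical
  induction w generalizing s with
  | nil => rfl
  | cons a w ih =>
    rw [cnt_cons, cnt_cons, ih, h1]
    congr 1
    by_cases h : mark' s a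
    · rw [if_pos h, if_pos ((h2 s a).1 h)]
    · rw [if_neg h, if_neg (fun h' => h ((h2 s a).2 h'))]

theorem cnt_split {δ : Q → A → Q} {m0 m1 m2 : Q → A → Prop}
    (h : ∀ s a, m0 s a ↔ (m1 s a ∨ m2 s a)) (hdis : ∀ s a, ¬ (m1 s a ∧ m2 s a)) (s : Q)
    (w : List A) : cnt δ m0 s w = cnt δ m1 s w + cnt δ m2 s w := by
  classical
  induction w generalizing s with
  | nil => rfl
  | cons a w ih =>
    rw [cnt_cons, cnt_cons, cnt_cons, ih]
    have : (if m0 s a then 1 else 0) = (if m1 s a then 1 else 0) + (if m2 s a then 1 else 0) := by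
      by_cases h1 : m1 s a
      · have h2 : ¬ m2 s a := fun h2 => hdis s a ⟨h1, h2⟩
        have h0 : m0 s a := (h s a).2 (Or.inl h1)
        simp [h0, h1, h2]
      · by_cases h2 : m2 s a
        · have h0 : m0 s a := (h s a).2 (Or.inr h2)
          simp [h0, h1, h2]
        · have h0 : ¬ m0 s a := fun h0 => ((h s a).1 h0).elim h1 h2
          simp [h0, h1, h2]
    omega

end CntGeneral

section Occ

variable {A T : Type} [Group T] (π : A → T)

/-- The plain level automaton. -/
def lev : T → A → T := fun t a => t * π a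

/-- Number of occurrences of the letter `c` read at level `l`, starting from level `t`. -/
noncomputable def occ (c : A) (l : T) (t : T) (w : List A) : ℕ :=
  cnt (lev π) (fun t a => a = c ∧ t = l) t w

/-- Unmarked entering transitions. -/
def IU (l : T) (U : T × Bool → A → Prop) : T × Bool → A → Prop :=
  fun s a => s.1 * π a = l ∧ U s a

variable {π}

theorem IU_Meas [Finite A] [Finite T] (hgen : ∀ d : T, d ≠ 1 → ∀ t : T, ∃ i : ℕ, d ^ i = t)
    {l : T} {m : A → Bool} {U : T × Bool → A → Prop} {β : Bool} {Pe : A → Prop}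
    (hU : ∀ s a, s.1 ≠ l → U s a → s.2 = β ∧ Pe a) (hPe : ∀ a, m a = β → ¬ Pe a)
    (n : ℕ) [NeZero n] (s : T × Bool) :
    Meas (fun w : List A => (((cnt (lstep π l m) (IU π l U) s w : ℕ) : ZMod n),
      arun (lstep π l m) s w)) := by
  have h1 := count_Meas (level_counterFree (π := π) (l := l) (c := m) hgen
    (U := fun _ _ => False) (β := true) (Pe := fun _ => False) (fun _ _ _ h => h.elim)
    (fun _ _ h => h)) (lmark_target _) n s
  have h2 := count_Meas (level_counterFree (π := π) (l := l) (c := m) hgen hU hPe)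
    (lmark_target U) n s
  refine (h1.prodMk h2).of_determined fun w w' h => ?_
  have hs : ∀ w, cnt (lstep π l m) (lmark π l fun _ _ => False) s w =
      cnt (lstep π l m) (lmark π l U) s w + cnt (lstep π l m) (IU π l U) s w := by
    intro w
    apply cnt_split
    · intro s a
      simp only [lmark, IU]
      tauto
    · intro s a
      simp only [lmark, IU]
      tauto
  simp only [Prod.mk.injEq] at h
  obtain ⟨⟨h3, h4⟩, h5, -⟩ := h
  rw [hs w, hs w'] at h3
  push_cast at h3
  rw [h5] at h3
  rw [Prod.mk.injEq]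
  exact ⟨add_left_cancel h3, h4⟩

/-- Occurrences of a neutral letter at a given level. -/
theorem occ_neutral_Meas [Finite A] [Finite T]
    (hgen : ∀ d : T, d ≠ 1 → ∀ t : T, ∃ i : ℕ, d ^ i = t) (c : A) (hc : π c = 1) (l : T)
    (n : ℕ) [NeZero n] (t : T) : Meas (fun w : List A => ((occ π c l t w : ℕ) : ZMod n)) := by
  have h := IU_Meas (π := π) hgen (l := l) (m := fun _ => false)
    (U := fun s a => s.1 = l ∧ a = c) (β := true) (Pe := fun _ => False)
    (fun s a h1 h2 => absurd h2.1 h1) (fun _ _ h => h) n (t, false)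
  refine h.of_determined fun w w' h => ?_
  have e : ∀ w, cnt (lstep π l fun _ => false) (IU π l fun s a => s.1 = l ∧ a = c) (t, false) w =
      occ π c l t w := by
    intro w
    apply cnt_proj (fun s : T × Bool => s.1)
    · intro s a
      rfl
    · intro s a
      simp only [IU]
      constructor
      · rintro ⟨-, h1, h2⟩
        exact ⟨h2, h1⟩
      · rintro ⟨h1, h2⟩
        exact ⟨by rw [h1, hc, mul_one, h2], h2, h1⟩
  rw [Prod.mk.injEq, e, e] at h
  exact h.1

open Classical in
/-- Indicator of being away from `l` with memory bit set. -/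
noncomputable def ind (l : T) (s : T × Bool) : ℤ := if s.1 ≠ l ∧ s.2 = true then 1 else 0

open Classical in
theorem occ_local (c : A) (hc : π c ≠ 1) (l : T) (s : T × Bool) (a : A) :
    (((if a = c ∧ s.1 = l then 1 else 0 : ℕ) : ℤ) -
      ((if a = c ∧ s.1 = l * (π c)⁻¹ then 1 else 0 : ℕ) : ℤ)) =
    ((if IU π l (fun s a => s.1 ≠ l ∧ s.2 = true ∧ a ≠ c) s a then 1 else 0 : ℕ) : ℤ) -
      ((if IU π l (fun s a => s.1 ≠ l ∧ s.2 = false ∧ a = c) s a then 1 else 0 : ℕ) : ℤ) +
      ind l (lstep π l (fun a => decide (a = c)) s a) - ind l s := by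
  obtain ⟨t, μ⟩ := s
  have hiff : t = l * (π c)⁻¹ ↔ t * π c = l := eq_mul_inv_iff_mul_eq
  by_cases h2 : t * π a = l
  · have e : lstep π l (fun a => decide (a = c)) (t, μ) a = (l, false) := by
      simp [lstep, h2]
    rw [e]
    by_cases h1 : t = l
    · have ha : a ≠ c := by
        rintro rfl
        rw [h1] at h2
        exact hc (by simpa using h2)
      simp [IU, ind, h1, ha]
    · by_cases h3 : a = c
      · subst h3
        cases μ <;> simp [IU, ind, h1, h2, hiff]
      · cases μ <;> simp [IU, ind, h1, h2, h3]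
  · by_cases h1 : t = l
    · have e := lstep_dep (π := π) (l := l) (c := fun a => decide (a = c)) (s := (t, μ)) h1 h2
      rw [e]
      by_cases h3 : a = c
      · subst h3
        simp [IU, ind, h1, hc]
      · simp [IU, ind, h1, h2, h3]
    · have e := lstep_off (π := π) (l := l) (c := fun a => decide (a = c)) (s := (t, μ)) h1 h2
      rw [e]
      by_cases h3 : a = c
      · subst h3
        simp [IU, ind, h1, h2, hiff]
      · simp [IU, ind, h1, h2, h3]

open Classical in
theorem occ_identity (c : A) (hc : π c ≠ 1) (l : T) (s : T × Bool) (w : List A) :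
    ((occ π c l s.1 w : ℕ) : ℤ) - ((occ π c (l * (π c)⁻¹) s.1 w : ℕ) : ℤ) =
    ((cnt (lstep π l (fun a => decide (a = c)))
        (IU π l (fun s a => s.1 ≠ l ∧ s.2 = true ∧ a ≠ c)) s w : ℕ) : ℤ) -
      ((cnt (lstep π l (fun a => decide (a = c)))
        (IU π l (fun s a => s.1 ≠ l ∧ s.2 = false ∧ a = c)) s w : ℕ) : ℤ) +
      ind l (arun (lstep π l (fun a => decide (a = c))) s w) - ind l s := by
  induction w generalizing s with
  | nil => simp [occ]
  | cons a w ih =>
    have h := ih (lstep π l (fun a => decide (a = c)) s a)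
    have hl := occ_local (π := π) c hc l s a
    unfold occ at h ⊢
    rw [cnt_cons, cnt_cons, cnt_cons, cnt_cons, arun_cons]
    rw [lstep_fst] at h
    push_cast
    push_cast at hl
    have e : lev π s.1 a = s.1 * π a := rfl
    rw [e]
    linarith

end Occ

end Vale.Agent.P329
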