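import Vale.Agent.P329.Occ

namespace Vale.Agent.P329

section Occ2

variable {A T : Type} [Group T] {π : A → T}

theorem occ_diff_Meas [Finite A] [Finite T]
    (hgen : ∀ d : T, d ≠ 1 → ∀ t : T, ∃ i : ℕ, d ^ i = t) (c : A) (hc : π c ≠ 1) (l : T)
    (n : ℕ) [NeZero n] :
    Meas (fun w : List A => (((occ π c l 1 w : ℕ) : ZMod n) -
      ((occ π c (l * (π c)⁻¹) 1 w : ℕ) : ZMod n))) := by
  classical
  have h1 := IU_Meas (π := π) hgen (l := l) (m := fun a => decide (a = c))
    (U := fun s a => s.1 ≠ l ∧ s.2 = true ∧ a ≠ c) (β := true) (Pe := fun a => a ≠ c)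
    (fun s a _ h2 => ⟨h2.2.1, h2.2.2⟩) (fun a h => by simpa using h) n (1, false)
  have h2 := IU_Meas (π := π) hgen (l := l) (m := fun a => decide (a = c))
    (U := fun s a => s.1 ≠ l ∧ s.2 = false ∧ a = c) (β := false) (Pe := fun a => a = c)
    (fun s a _ h2 => ⟨h2.2.1, h2.2.2⟩) (fun a h => by simpa using h) n (1, false)
  refine (h1.prodMk h2).of_determined fun w w' h => ?_
  simp only [Prod.mk.injEq] at h
  obtain ⟨⟨h3, h4⟩, h5, -⟩ := h
  have e := fun w => congrArg (fun z : ℤ => (z : ZMod n))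
    (occ_identity (π := π) c hc l (1, false) w)
  simp only [Int.cast_sub, Int.cast_add, Int.cast_natCast] at e
  rw [e w, e w', h3, h4, h5]

theorem occ_sum [Fintype T] (c : A) (t : T) (w : List A) :
    ∑ l : T, occ π c l t w = occ (fun _ : A => (1 : Unit)) c 1 1 w := by
  classical
  induction w generalizing t with
  | nil => simp [occ]
  | cons a w ih =>
    have h := ih (t * π a)
    unfold occ at h ⊢
    have hL : ∀ l, cnt (lev π) (fun t a => a = c ∧ t = l) t (a :: w) =
        (if a = c ∧ t = l then 1 else 0) + cnt (lev π) (fun t a => a = c ∧ t = l) (t * π a) w :=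
      fun l => by rw [cnt_cons]; congr
    rw [Finset.sum_congr rfl (fun l _ => hL l), Finset.sum_add_distrib, h, cnt_cons]
    have e : lev (fun _ : A => (1 : Unit)) 1 a = 1 := rfl
    rw [e]
    congr 1
    by_cases ha : a = c
    · simp [ha]
    · simp [ha]

theorem tot_Meas [Finite A] (c : A) (n : ℕ) [NeZero n] :
    Meas (fun w : List A => ((occ (fun _ : A => (1 : Unit)) c 1 1 w : ℕ) : ZMod n)) :=
  occ_neutral_Meas (fun d hd => absurd (Subsingleton.elim d 1) hd) c rfl 1 n 1

theorem occ_Meas [Finite A] [Finite T]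
    (hgen : ∀ d : T, d ≠ 1 → ∀ t : T, ∃ i : ℕ, d ^ i = t) (c : A) (l : T)
    (n : ℕ) [NeZero n] : Meas (fun w : List A => ((occ π c l 1 w : ℕ) : ZMod n)) := by
  classical
  by_cases hc : π c = 1
  · exact occ_neutral_Meas hgen c hc l n 1
  have := Fintype.ofFinite T
  have hN : 0 < Fintype.card T := Fintype.card_pos
  have hn : 0 < n := Nat.pos_of_ne_zero (NeZero.ne n)
  have : NeZero (Fintype.card T * n) := ⟨(Nat.mul_pos hN hn).ne'⟩
  have h1 := Meas.pi (fun l : T => occ_diff_Meas (π := π) hgen c hc l (Fintype.card T * n))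
  have h2 := tot_Meas (A := A) c (Fintype.card T * n)
  refine (h1.prodMk h2).of_determined fun w w' h => ?_
  simp only [Prod.mk.injEq] at h
  obtain ⟨h3, h4⟩ := h
  set Y : T → ZMod (Fintype.card T * n) := fun l =>
    ((occ π c l 1 w : ℕ) : ZMod (Fintype.card T * n)) - ((occ π c l 1 w' : ℕ) : ZMod _) with hY
  have hstep : ∀ l, Y l = Y (l * (π c)⁻¹) := by
    intro l
    have := congrFun h3 l
    simp only [hY]
    linear_combination this
  have hpow : ∀ (i : ℕ) (l : T), Y (l * (π c) ^ i) = Y l := by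
    intro i
    induction i with
    | zero => intro l; simp
    | succ i ih =>
      intro l
      rw [hstep, pow_succ, mul_assoc, mul_assoc, mul_inv_cancel, mul_one, ih]
  have hconst : ∀ l', Y l' = Y l := by
    intro l'
    obtain ⟨i, hi⟩ := hgen _ hc (l⁻¹ * l')
    have := hpow i l
    rw [hi, mul_inv_cancel_left] at this
    exact this
  have hsum : ∑ l' : T, Y l' = 0 := by
    simp only [hY, Finset.sum_sub_distrib]
    rw [← Nat.cast_sum, ← Nat.cast_sum, occ_sum, occ_sum, h4, sub_self]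
  rw [Finset.sum_congr rfl (fun l' _ => hconst l'), Finset.sum_const, Finset.card_univ,
    nsmul_eq_mul] at hsum
  have hz : (((Fintype.card T : ℤ) * ((occ π c l 1 w : ℤ) - (occ π c l 1 w' : ℤ)) : ℤ) :
      ZMod (Fintype.card T * n)) = 0 := by
    push_cast
    simpa [hY] using hsum
  rw [ZMod.intCast_zmod_eq_zero_iff_dvd] at hz
  push_cast at hz
  have hdvd : (n : ℤ) ∣ (occ π c l 1 w : ℤ) - (occ π c l 1 w' : ℤ) :=
    Int.dvd_of_mul_dvd_mul_left (by exact_mod_cast hN.ne') hz
  have := (ZMod.intCast_zmod_eq_zero_iff_dvd _ n).2 hdvd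
  push_cast at this
  exact sub_eq_zero.1 this

end Occ2

end Vale.Agent.P329
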