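import Vale.Agent.P329.Ext

namespace Vale.Agent.P329

section Prime

variable {A : Type}

theorem level_final_Meas {T : Type} [Group T] [Finite A] [Finite T]
    (hgen : ∀ d : T, d ≠ 1 → ∀ t : T, ∃ i : ℕ, d ^ i = t) (π : A → T) :
    Meas (fun w : List A => (w.map π).prod) := by
  have h := IU_Meas (π := π) hgen (l := 1) (m := fun _ => false)
    (U := fun _ _ => False) (β := true) (Pe := fun _ => False)
    (fun _ _ _ h => h.elim) (fun _ _ h => h) 1 (1, false)
  refine h.of_determined fun w w' h => ?_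
  rw [Prod.mk.injEq] at h
  have := congrArg Prod.fst h.2
  rw [lrun_fst, lrun_fst] at this
  simpa using this

theorem hgen_of_prime {T : Type} [Group T] (hp : (Nat.card T).Prime) :
    ∀ d : T, d ≠ 1 → ∀ t : T, ∃ i : ℕ, d ^ i = t := by
  intro d hd t
  haveI : Fact (Nat.card T).Prime := ⟨hp⟩
  have := mem_powers_of_prime_card (G := T) rfl (g := d) (g' := t) hd
  exact Submonoid.mem_powers_iff _ _ |>.1 this

theorem abelian_by_prime {G : Type} [Group G] [Finite A] [Finite G] (N : Subgroup G) [N.Normal]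
    (hN : ∀ x ∈ N, ∀ y ∈ N, x * y = y * x) (hp : N.index.Prime) (φ : A → G) (S : Set G) :
    HT 1 ({w : List A | (w.map φ).prod ∈ S} : Set (List A)) := by
  have hgen := hgen_of_prime (T := G ⧸ N) hp
  have : NeZero (Nat.card N) := ⟨Nat.card_pos.ne'⟩
  exact ext_HT N hN φ (fun c l => occ_Meas hgen c l _) (level_final_Meas hgen _) S

end Prime

end Vale.Agent.P329
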