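import Vale.Agent.P329.Occ2

namespace Vale.Agent.P329

section Rank

variable {A Q : Type}

/-- An unmarked run either returns to its start or strictly decreases the rank. -/
theorem run_rank {δ : Q → A → Q} {mark : Q → A → Prop} (rk : Q → ℕ)
    (h : ∀ q a, ¬ mark q a → δ q a = q ∨ rk (δ q a) < rk q) (u : List A) (q : Q)
    (h0 : cnt δ mark q u = 0) : arun δ q u = q ∨ rk (arun δ q u) < rk q := by
  classical
  induction u generalizing q with
  | nil => exact Or.inl rfl
  | cons a u ih =>
    rw [cnt_cons] at h0
    have hm : ¬ mark q a := by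
      intro hm
      simp [hm] at h0
    have h0' : cnt δ mark (δ q a) u = 0 := by omega
    rw [arun_cons]
    rcases h q a hm with h1 | h1
    · rw [h1] at h0' ⊢
      exact ih q h0'
    · rcases ih (δ q a) h0' with h2 | h2
      · rw [h2]
        exact Or.inr h1
      · exact Or.inr (h2.trans h1)

/-- T2a. If every unmarked transition either fixes the state or strictly decreases a rank, the
automaton without its marked transitions is counter-free.  (Use `iter_some` from `Level`.) -/
theorem counterFree_of_rank {δ : Q → A → Q} {mark : Q → A → Prop} (rk : Q → ℕ)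
    (h : ∀ q a, ¬ mark q a → δ q a = q ∨ rk (δ q a) < rk q) : CounterFree δ mark := by
  intro u x j hj hx
  cases x with
  | none => exact pact_none _ _ _
  | some q =>
    obtain ⟨hper, hc0⟩ := iter_some _ _ u q j q hx
    set g : Q → Q := fun s => arun δ s u with hg
    obtain ⟨j', rfl⟩ : ∃ j', j = j' + 1 := ⟨j - 1, by omega⟩
    have hmono : ∀ i, i ≤ j' → rk (g^[i + 1] q) ≤ rk (g q) := by
      intro i
      induction i with
      | zero => intro _; exact le_rfl
      | succ i ih =>
        intro hi
        have h1 := ih (by omega)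
        have h2 := run_rank rk h u (g^[i + 1] q) (hc0 (i + 1) (by omega))
        have h3 : g^[i + 1 + 1] q = arun δ (g^[i + 1] q) u := by
          rw [Function.iterate_succ_apply']
        rw [h3]
        rcases h2 with h2 | h2
        · rw [h2]; exact h1
        · omega
    have h1 := hmono j' le_rfl
    rw [← hper] at h1
    refine (pact_run _ _ q q u).2 ⟨hc0 0 hj, ?_⟩
    rcases run_rank rk h u q (hc0 0 hj) with h2 | h2
    · exact h2
    · exfalso
      have h3 : rk (g q) < rk q := h2
      omega

end Rank

section ULevel

variable {A : Type}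

open Classical in
/-- The uniform level automaton on `ZMod M`: letters in `D` add one, the others are neutral. -/
noncomputable def ustep (M : ℕ) (D : A → Prop) : ZMod M → A → ZMod M :=
  fun t x => if D x then t + 1 else t

/-- Number of occurrences of `b` read at level `l`, starting from level `t`. -/
noncomputable def uocc (M : ℕ) (D : A → Prop) (b : A) (l t : ZMod M) (w : List A) : ℕ :=
  cnt (ustep M D) (fun s x => x = b ∧ s = l) t w

theorem val_sub_one_lt {M : ℕ} [NeZero M] {z : ZMod M} (hz : z ≠ 0) : (z - 1).val < z.val := by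
  have hpos : 0 < z.val := ZMod.val_pos.mpr hz
  have hM : 1 < M := by
    by_contra hM
    have hM1 : M = 1 := by
      have := NeZero.pos M
      omega
    subst hM1
    exact hz (Subsingleton.elim _ _)
  have h1 : (1 : ZMod M).val = 1 := by
    rw [ZMod.val_one_eq_one_mod, Nat.mod_eq_of_lt hM]
  rw [ZMod.val_sub (by rw [h1]; exact hpos), h1]
  omega

/-- The rank argument for the uniform level automaton. -/
theorem ustep_rank (M : ℕ) [NeZero M] (D : A → Prop) (l : ZMod M) (s : ZMod M) (x : A)
    (hm : ¬ (D x ∧ s + 1 = l)) :
    ustep M D s x = s ∨ (l - 1 - ustep M D s x).val < (l - 1 - s).val := by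
  by_cases hD : D x
  · right
    have e : ustep M D s x = s + 1 := by simp [ustep, hD]
    rw [e]
    have hne : l - 1 - s ≠ 0 := by
      intro h0
      apply hm
      refine ⟨hD, ?_⟩
      have : l = s + 1 := by linear_combination h0
      exact this.symm
    have := val_sub_one_lt hne
    have e2 : l - 1 - (s + 1) = l - 1 - s - 1 := by ring
    rw [e2]
    exact this
  · left
    simp [ustep, hD]

/-- T2b. For a neutral letter `b`, its number of occurrences at level `l` modulo `n` is
measurable.  Marks: all `D`-transitions entering `l`, with or without the `b`-loops at `l`;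
rank `(l - 1 - s).val`; then `count_Meas` twice, `cnt_split` and subtraction
(compare `IU_Meas`, `occ_neutral_Meas`). -/
theorem uocc_Meas [Finite A] (M : ℕ) [NeZero M] (D : A → Prop) (b : A) (hb : ¬ D b)
    (l t : ZMod M) (n : ℕ) [NeZero n] :
    Meas (fun w : List A => ((uocc M D b l t w : ℕ) : ZMod n)) := by
  have hcf1 : CounterFree (ustep M D) (fun s x => D x ∧ s + 1 = l) :=
    counterFree_of_rank (fun s => (l - 1 - s).val) (fun s x hm => ustep_rank M D l s x hm)
  have hcf0 : CounterFree (ustep M D) (fun s x => (D x ∧ s + 1 = l) ∨ (x = b ∧ s = l)) :=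
    counterFree_of_rank (fun s => (l - 1 - s).val)
      (fun s x hm => ustep_rank M D l s x (fun h => hm (Or.inl h)))
  have h1 := count_Meas hcf1 (q0 := l) (fun s x hm => by simp [ustep, hm.1, hm.2]) n t
  have h0 := count_Meas hcf0 (q0 := l) (fun s x hm => by
    rcases hm with hm | hm
    · simp [ustep, hm.1, hm.2]
    · simp [ustep, hm.1, hm.2, hb]) n t
  refine (h0.prodMk h1).of_determined fun w w' h => ?_
  have hs : ∀ w, cnt (ustep M D) (fun s x => (D x ∧ s + 1 = l) ∨ (x = b ∧ s = l)) t w =
      cnt (ustep M D) (fun s x => D x ∧ s + 1 = l) t w + uocc M D b l t w := by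
    intro w
    apply cnt_split
    · intro s a
      exact Iff.rfl
    · rintro s a ⟨h1, h2⟩
      exact hb (h2.1 ▸ h1.1)
  simp only [Prod.mk.injEq] at h
  obtain ⟨⟨h3, -⟩, h5, -⟩ := h
  rw [hs w, hs w'] at h3
  push_cast at h3
  rw [h5] at h3
  exact add_left_cancel h3

end ULevel

end Vale.Agent.P329
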