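import Vale.Agent.P329.LocalDiv

namespace Vale.Agent.P329

section Subst

variable {A M : Type} [Monoid M]

/-- Concatenate blocks, each followed by the marker letter `c`. -/
def enc (c : A) (l : List (List A)) : List A := (l.map (fun v => v ++ [c])).flatten

@[simp] theorem enc_nil (c : A) : enc c [] = [] := rfl

@[simp] theorem enc_cons (c : A) (v : List A) (l : List (List A)) :
    enc c (v :: l) = v ++ c :: enc c l := by
  simp [enc]

theorem enc_append (c : A) (l l' : List (List A)) : enc c (l ++ l') = enc c l ++ enc c l' := by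
  simp [enc]

theorem append_cons_inj {c : A} : ∀ {v v' x y : List A}, c ∉ v → c ∉ v' →
    v ++ c :: x = v' ++ c :: y → v = v' ∧ x = y
  | [], [], x, y, _, _, h => by simpa using h
  | [], b :: v', x, y, _, h', h => by
    simp only [List.nil_append, List.cons_append, List.cons.injEq] at h
    exact absurd (by simp [h.1]) h'
  | a :: v, [], x, y, h', _, h => by
    simp only [List.nil_append, List.cons_append, List.cons.injEq] at h
    exact absurd (by simp [h.1]) h'
  | a :: v, b :: v', x, y, h1, h2, h => by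
    simp only [List.cons_append, List.cons.injEq] at h
    have := append_cons_inj (v := v) (v' := v') (fun hh => h1 (List.mem_cons_of_mem _ hh))
      (fun hh => h2 (List.mem_cons_of_mem _ hh)) h.2
    exact ⟨by rw [h.1, this.1], this.2⟩

theorem enc_inj {c : A} {B : Set A} (hc : c ∉ B) : ∀ {l l' : List (List A)},
    (∀ v ∈ l, ∀ a ∈ v, a ∈ B) → (∀ v ∈ l', ∀ a ∈ v, a ∈ B) → enc c l = enc c l' → l = l'
  | [], [], _, _, _ => rfl
  | [], v :: l', _, _, h => by simp at h
  | v :: l, [], _, _, h => by simp at h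
  | v :: l, v' :: l', h1, h2, h => by
    rw [enc_cons, enc_cons] at h
    have hv : c ∉ v := fun hh => hc (h1 v (by simp) c hh)
    have hv' : c ∉ v' := fun hh => hc (h2 v' (by simp) c hh)
    obtain ⟨e1, e2⟩ := append_cons_inj hv hv' h
    have := enc_inj hc (fun u hu => h1 u (List.mem_cons_of_mem _ hu))
      (fun u hu => h2 u (List.mem_cons_of_mem _ hu)) e2
    rw [e1, this]

theorem enc_decomp (c : A) (B : Set A) : ∀ w : List A, (∀ a ∈ w, a ∈ B ∨ a = c) →
    ∃ (l : List (List A)) (v : List A), (∀ u ∈ l, ∀ a ∈ u, a ∈ B) ∧ (∀ a ∈ v, a ∈ B) ∧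
      w = enc c l ++ v
  | [], _ => ⟨[], [], by simp, by simp, by simp⟩
  | a :: w, h => by
    obtain ⟨l, v, hl, hv, rfl⟩ := enc_decomp c B w (fun b hb => h b (List.mem_cons_of_mem _ hb))
    rcases h a (by simp) with ha | rfl
    · cases l with
      | nil =>
        refine ⟨[], a :: v, by simp, ?_, by simp⟩
        intro b hb
        rcases List.mem_cons.1 hb with rfl | hb
        · exact ha
        · exact hv b hb
      | cons u l =>
        refine ⟨(a :: u) :: l, v, ?_, hv, by simp⟩
        intro x hx b hb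
        rcases List.mem_cons.1 hx with rfl | hx
        · rcases List.mem_cons.1 hb with rfl | hb
          · exact ha
          · exact hl u (by simp) b hb
        · exact hl x (List.mem_cons_of_mem _ hx) b hb
    · refine ⟨[] :: l, v, ?_, hv, by simp⟩
      intro x hx b hb
      rcases List.mem_cons.1 hx with rfl | hx
      · simp at hb
      · exact hl x hx b hb

theorem mem_enc {c : A} {B : Set A} : ∀ {l : List (List A)}, (∀ u ∈ l, ∀ a ∈ u, a ∈ B) →
    ∀ a ∈ enc c l, a ∈ B ∨ a = c
  | [], _, a, ha => by simp at ha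
  | u :: l, h, a, ha => by
    rw [enc_cons, List.mem_append, List.mem_cons] at ha
    rcases ha with ha | rfl | ha
    · exact Or.inl (h u (by simp) a ha)
    · exact Or.inr rfl
    · exact mem_enc (fun x hx => h x (List.mem_cons_of_mem _ hx)) a ha

variable (φ : A → M) (c : A) (B : Set A)

/-- Words over `B` with a given value. -/
def preOn (m : M) : Language A := {w | (∀ a ∈ w, a ∈ B) ∧ (w.map φ).prod = m}

/-- Pull-back of a language over the alphabet `M` along the block decomposition. -/
def hat (K : Language M) : Language A :=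
  {w | ∃ l : List (List A), (∀ v ∈ l, ∀ a ∈ v, a ∈ B) ∧ w = enc c l ∧
    l.map (fun v => (v.map φ).prod) ∈ K}

theorem hat_top [Finite A] : HT 0 (hat φ c B ⊤) := by
  have h := (HT.one (α := A) 0).add ((HT.wordsOver 0 (B ∪ {c})).mul (HT.letter 0 c))
  refine HT.of_iff h fun w => ?_
  constructor
  · rintro ⟨l, hl, rfl, -⟩
    rcases List.eq_nil_or_concat l with rfl | ⟨l0, v, rfl⟩
    · exact Or.inl rfl
    · refine Or.inr (Language.mem_mul.2 ⟨enc c l0 ++ v, ?_, [c], rfl, ?_⟩)
      · intro a ha
        rcases List.mem_append.1 ha with ha | ha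
        · rcases mem_enc (fun u hu => hl u (by simp [hu])) a ha with h | h
          · exact Or.inl h
          · exact Or.inr h
        · exact Or.inl (hl v (by simp) a ha)
      · simp [enc_append]
  · rintro (h | h)
    · have : w = [] := h
      subst this
      exact ⟨[], by simp, by simp, trivial⟩
    · obtain ⟨u, hu, x, hx, rfl⟩ := Language.mem_mul.1 h
      have hx' : x = [c] := hx
      subst hx'
      obtain ⟨l, v, hl, hv, rfl⟩ := enc_decomp c B u (fun a ha => by
        rcases hu a ha with h | h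
        · exact Or.inl h
        · exact Or.inr h)
      refine ⟨l ++ [v], ?_, by simp [enc_append], trivial⟩
      intro x hx
      rcases List.mem_append.1 hx with hx | hx
      · exact hl x hx
      · rw [List.mem_singleton] at hx
        subst hx
        exact hv

theorem hat_SF [Finite A] (hc : c ∉ B) (hP : ∀ m, HT 0 (preOn φ B m)) :
    ∀ E : GRegex M, E.sh ≤ 0 → HT 0 (hat φ c B E.lang)
  | GRegex.zero, _ => by
    refine HT.of_iff (HT.zero 0) fun w => ?_
    constructor
    · rintro ⟨l, -, -, h⟩
      exact h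
    · intro h
      exact absurd h (by simp)
  | GRegex.one, _ => by
    refine HT.of_iff (HT.one 0) fun w => ?_
    constructor
    · rintro ⟨l, -, rfl, h⟩
      have h' : l.map (fun v => (v.map φ).prod) = [] := h
      rw [List.map_eq_nil_iff] at h'
      subst h'
      rfl
    · intro h
      have : w = [] := h
      subst this
      exact ⟨[], by simp, by simp, rfl⟩
  | GRegex.letter t, _ => by
    refine HT.of_iff ((hP t).mul (HT.letter 0 c)) fun w => ?_
    constructor
    · rintro ⟨l, hl, rfl, h⟩
      have h' : l.map (fun v => (v.map φ).prod) = [t] := h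
      rw [List.map_eq_singleton_iff] at h'
      obtain ⟨v, rfl, hv⟩ := h'
      exact Language.mem_mul.2 ⟨v, ⟨hl v (by simp), hv⟩, [c], rfl, by simp⟩
    · intro h
      obtain ⟨v, ⟨hv1, hv2⟩, x, hx, rfl⟩ := Language.mem_mul.1 h
      have hx' : x = [c] := hx
      subst hx'
      refine ⟨[v], by simpa using hv1, by simp, ?_⟩
      show [v].map (fun v => (v.map φ).prod) = [t]
      simp [hv2]
  | GRegex.union P Q, h => by
    have hPQ : P.sh ≤ 0 ∧ Q.sh ≤ 0 := by simpa [GRegex.sh] using h
    refine HT.of_iff ((hat_SF hc hP P hPQ.1).add (hat_SF hc hP Q hPQ.2)) fun w => ?_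
    constructor
    · rintro ⟨l, hl, rfl, h | h⟩
      · exact Or.inl ⟨l, hl, rfl, h⟩
      · exact Or.inr ⟨l, hl, rfl, h⟩
    · rintro (⟨l, hl, rfl, h⟩ | ⟨l, hl, rfl, h⟩)
      · exact ⟨l, hl, rfl, Or.inl h⟩
      · exact ⟨l, hl, rfl, Or.inr h⟩
  | GRegex.concat P Q, h => by
    have hPQ : P.sh ≤ 0 ∧ Q.sh ≤ 0 := by simpa [GRegex.sh] using h
    refine HT.of_iff ((hat_SF hc hP P hPQ.1).mul (hat_SF hc hP Q hPQ.2)) fun w => ?_
    constructor
    · rintro ⟨l, hl, rfl, h⟩
      obtain ⟨x, hx, y, hy, hxy⟩ := Language.mem_mul.1 h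
      obtain ⟨l1, l2, rfl, rfl, rfl⟩ := List.map_eq_append_iff.1 hxy.symm
      refine Language.mem_mul.2 ⟨enc c l1, ⟨l1, fun v hv => hl v (by simp [hv]), rfl, hx⟩,
        enc c l2, ⟨l2, fun v hv => hl v (by simp [hv]), rfl, hy⟩, (enc_append c l1 l2).symm⟩
    · intro h
      obtain ⟨x, ⟨l1, hl1, rfl, h1⟩, y, ⟨l2, hl2, rfl, h2⟩, rfl⟩ := Language.mem_mul.1 h
      refine ⟨l1 ++ l2, ?_, (enc_append c l1 l2).symm, ?_⟩
      · intro v hv
        rcases List.mem_append.1 hv with hv | hv
        · exact hl1 v hv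
        · exact hl2 v hv
      · rw [List.map_append]
        exact Language.mem_mul.2 ⟨_, h1, _, h2, rfl⟩
  | GRegex.compl P, h => by
    have hP' : P.sh ≤ 0 := by simpa [GRegex.sh] using h
    refine HT.of_iff ((hat_top φ c B).sdiff (hat_SF hc hP P hP')) fun w => ?_
    constructor
    · rintro ⟨l, hl, rfl, h⟩
      refine ⟨⟨l, hl, rfl, trivial⟩, ?_⟩
      rintro ⟨l', hl', e, h'⟩
      have := enc_inj hc hl hl' e
      subst this
      exact h h'
    · rintro ⟨⟨l, hl, rfl, -⟩, h⟩
      exact ⟨l, hl, rfl, fun h' => h ⟨l, hl, rfl, h'⟩⟩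
  | GRegex.star P, h => by
    simp [GRegex.sh] at h

end Subst

end Vale.Agent.P329
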