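import Vale.Agent.P329.Schutz

namespace Vale.Agent.P329

section Main

variable {A M : Type} [Monoid M]

theorem prod_enc (φ : A → M) (c : A) (l : List (List A)) :
    ((enc c l).map φ).prod = (l.map (fun v => (v.map φ).prod * φ c)).prod := by
  induction l with
  | nil => simp
  | cons v l ih => simp [ih, mul_assoc]

/-- The letter map from the alphabet `M` into the local divisor at `c`. -/
def psi (c : M) (t : M) : LD c := ⟨c * t * c, ⟨t * c, by rw [mul_assoc]⟩, ⟨c * t, rfl⟩⟩

theorem prod_psi (c : M) (ts : List M) :
    ((ts.map (psi c)).prod : LD c).1 = c * (ts.map (fun t => t * c)).prod := by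
  induction ts with
  | nil => simp [LD.one_val]
  | cons t ts ih =>
    rw [List.map_cons, List.prod_cons, LD.mul_val (psi c t) _ (c * t) rfl, ih]
    simp [mul_assoc]

theorem schutz_step [Finite A] [Finite M] (φ : A → M) (c : A) (B : Set A) (hc : c ∉ B)
    (hP : ∀ m, HT 0 (preOn φ B m))
    (hLD : ∀ r : LD (φ c), HT 0 ({ts : List M | (ts.map (psi (φ c))).prod = r} : Set (List M)))
    (m : M) : HT 0 (preOn φ (B ∪ {c}) m) := by
  have hmid : ∀ r : LD (φ c),
      HT 0 (hat φ c B ({ts : List M | (ts.map (psi (φ c))).prod = r} : Set (List M))) := by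
    intro r
    obtain ⟨E, hE, hEl⟩ := hLD r
    rw [← hEl]
    exact hat_SF φ c B hc hP E hE
  have hU := HT.exists_fintype_of (k := 0)
    (fun i : M × LD (φ c) × M => i.1 * i.2.1.1 * i.2.2 = m)
    (fun i => preOn φ B i.1 * {[c]} *
      hat φ c B ({ts : List M | (ts.map (psi (φ c))).prod = i.2.1} : Set (List M)) *
      preOn φ B i.2.2)
    (fun i _ => (((hP _).mul (HT.letter 0 c)).mul (hmid _)).mul (hP _))
  refine HT.of_iff ((hP m).add hU) fun w => ?_
  constructor
  · rintro ⟨hw, hm⟩
    obtain ⟨l0, v, hl, hv, rfl⟩ := enc_decomp c B w (fun a ha => by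
      rcases hw a ha with h | h
      · exact Or.inl h
      · exact Or.inr h)
    cases l0 with
    | nil => exact Or.inl ⟨hv, by simpa using hm⟩
    | cons u l =>
      refine Or.inr ⟨((u.map φ).prod, ((l.map (fun v => (v.map φ).prod)).map (psi (φ c))).prod,
        (v.map φ).prod), ?_, ?_⟩
      · show (u.map φ).prod * (((l.map (fun v => (v.map φ).prod)).map (psi (φ c))).prod).1 *
          (v.map φ).prod = m
        rw [prod_psi, ← hm]
        simp [prod_enc, mul_assoc, Function.comp_def]
      · refine Language.mem_mul.2 ⟨u ++ [c] ++ enc c l, Language.mem_mul.2 ⟨u ++ [c],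
          Language.mem_mul.2 ⟨u, ⟨hl u (by simp), rfl⟩, [c], rfl, rfl⟩, enc c l,
          ⟨l, fun x hx => hl x (List.mem_cons_of_mem _ hx), rfl, rfl⟩, rfl⟩, v, ⟨hv, rfl⟩, by simp⟩
  · rintro (h | ⟨⟨q, r, s⟩, hqrs, h⟩)
    · exact ⟨fun a ha => Or.inl (h.1 a ha), h.2⟩
    · obtain ⟨x, hx, v, ⟨hv1, hv2⟩, rfl⟩ := Language.mem_mul.1 h
      obtain ⟨y, hy, z, ⟨l, hl, rfl, hr⟩, rfl⟩ := Language.mem_mul.1 hx
      obtain ⟨u, ⟨hu1, hu2⟩, cc, hcc, rfl⟩ := Language.mem_mul.1 hy
      have hcc' : cc = [c] := hcc
      subst hcc'
      have hr' : ((l.map (fun v => (v.map φ).prod)).map (psi (φ c))).prod = r := hr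
      constructor
      · intro a ha
        simp only [List.mem_append, List.mem_singleton] at ha
        rcases ha with ((ha | ha) | ha) | ha
        · exact Or.inl (hu1 a ha)
        · exact Or.inr ha
        · rcases mem_enc hl a ha with h | h
          · exact Or.inl h
          · exact Or.inr h
        · exact Or.inl (hv1 a ha)
      · have hqrs' : q * r.1 * s = m := hqrs
        have hu2' : (u.map φ).prod = q := hu2
        have hv2' : (v.map φ).prod = s := hv2
        rw [← hqrs', ← hr', prod_psi, ← hu2', ← hv2']
        simp [prod_enc, mul_assoc, Function.comp_def]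

theorem schutz_aux (n : ℕ) : ∀ (M : Type) [Monoid M] [Finite M], Nat.card M ≤ n →
    (∀ x : M, ∃ k, x ^ k = x ^ (k + 1)) → ∀ (A : Type) [Finite A] (φ : A → M) (m : M),
    HT 0 ({w : List A | (w.map φ).prod = m} : Set (List A)) := by
  induction n with
  | zero =>
    intro M _ _ hcard
    exact absurd hcard (by simpa using (Nat.card_pos (α := M)).ne')
  | succ n ih =>
    intro M _ _ hcard hM A _ φ
    classical
    have key : ∀ S : Finset A, (∀ a ∈ S, φ a ≠ 1) →
        ∀ m, HT 0 (preOn φ {a | φ a = 1 ∨ a ∈ S} m) := by
      intro S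
      induction S using Finset.induction_on with
      | empty =>
        intro _ m
        have hone : ∀ w : List A, (∀ a ∈ w, φ a = 1) → (w.map φ).prod = 1 := by
          intro w hw
          induction w with
          | nil => simp
          | cons a w ihw =>
            simp only [List.map_cons, List.prod_cons]
            rw [hw a (by simp), one_mul]
            exact ihw fun b hb => hw b (List.mem_cons_of_mem _ hb)
        by_cases hm : m = 1
        · refine HT.of_iff (HT.wordsOver 0 {a | φ a = 1}) fun w => ?_
          constructor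
          · rintro ⟨h1, -⟩ a ha
            simpa using h1 a ha
          · intro h
            exact ⟨fun a ha => Or.inl (h a ha), by rw [hm]; exact hone w h⟩
        · refine HT.of_iff (HT.zero 0) fun w => ?_
          constructor
          · rintro ⟨h1, h2⟩
            exact absurd (h2.symm.trans (hone w fun a ha => by simpa using h1 a ha)) hm
          · intro h
            exact absurd h (by simp)
      | insert c S hcS ihS =>
        intro hS m
        have hc1 : φ c ≠ 1 := hS c (Finset.mem_insert_self c S)
        have hB : c ∉ {a | φ a = 1 ∨ a ∈ S} := by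
          rintro (h | h)
          · exact hc1 h
          · exact hcS h
        have hP := ihS (fun a ha => hS a (Finset.mem_insert_of_mem ha))
        have hlt : Nat.card (LD (φ c)) ≤ n := by
          have := LD.card_lt hM hc1
          omega
        have hLD := ih (LD (φ c)) hlt (LD.aperiodic hM) M (psi (φ c))
        have := schutz_step φ c _ hB hP hLD m
        have e : ({a | φ a = 1 ∨ a ∈ insert c S} : Set A) = {a | φ a = 1 ∨ a ∈ S} ∪ {c} := by
          ext a
          simp only [Finset.mem_insert, Set.mem_ofPred_eq, Set.mem_union, Set.mem_singleton_iff]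
          tauto
        rw [e]
        exact this
    intro m
    have := Fintype.ofFinite A
    refine HT.of_iff (key (Finset.univ.filter fun a => φ a ≠ 1) (by simp) m) fun w => ?_
    constructor
    · intro h
      refine ⟨fun a _ => ?_, h⟩
      by_cases ha : φ a = 1
      · exact Or.inl ha
      · exact Or.inr (by simp [ha])
    · intro h
      exact h.2

/-- Schutzenberger: languages recognized by finite aperiodic monoids are star-free. -/
theorem schutz {M : Type} [Monoid M] [Finite M] (hM : ∀ x : M, ∃ k, x ^ k = x ^ (k + 1))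
    {A : Type} [Finite A] (φ : A → M) (m : M) :
    HT 0 ({w : List A | (w.map φ).prod = m} : Set (List A)) :=
  schutz_aux (Nat.card M) M le_rfl hM A φ m

end Main

end Vale.Agent.P329
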