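import Vale.Agent.P329.PSum

namespace Vale.Agent.P329

section SubId

variable {A : Type} [DecidableEq A]

/-! T4: integer identities.  Each is proved by induction on `w` after generalizing the
accumulator `z`.  `is1 a` is the indicator of the letter `a`. -/

/-- indicator of one letter -/
def is1 (a : A) : A → Bool := fun x => decide (x = a)

/-- indicator of two letters -/
def is2 (a c : A) : A → Bool := fun x => decide (x = a) || decide (x = c)

theorem sub_cons_self (a : A) (u w : List A) :
    sub (a :: u) (a :: w) = sub (a :: u) w + sub u w := by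
  rw [sub_cons_cons, if_pos rfl]

theorem sub_cons_ne (a x : A) (h : x ≠ a) (u w : List A) :
    sub (a :: u) (x :: w) = sub (a :: u) w := by
  rw [sub_cons_cons, if_neg h, Nat.add_zero]

theorem sub_one (a : A) (w : List A) : sub [a] w = w.count a := by
  induction w with
  | nil => simp
  | cons x w ih =>
    by_cases hx : x = a
    · subst hx
      rw [sub_cons_self, ih, List.count_cons_self, sub_nil_left]
    · rw [sub_cons_ne a x hx, ih, List.count_cons_of_ne hx]

/-- product identity for two different letters -/
theorem sub_prod (a b : A) (h : a ≠ b) (w : List A) :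
    sub [a, b] w + sub [b, a] w = w.count a * w.count b := by
  induction w with
  | nil => simp
  | cons x w ih =>
    by_cases hxa : x = a
    · subst hxa
      rw [sub_cons_self, sub_cons_ne b x h, List.count_cons_self, List.count_cons_of_ne h,
        sub_one]
      nlinarith [ih]
    · by_cases hxb : x = b
      · subst hxb
        rw [sub_cons_self, sub_cons_ne a x hxa, List.count_cons_self,
          List.count_cons_of_ne hxa, sub_one]
        nlinarith [ih]
      · rw [sub_cons_ne a x hxa, sub_cons_ne b x hxb, List.count_cons_of_ne hxa,
          List.count_cons_of_ne hxb, ih]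

theorem psum_step_self (a b : A) (h : a ≠ b) (f : ℕ → ℕ) (z : ℕ) (w : List A) :
    psum (is1 a) b f z (a :: w) = psum (is1 a) b f (z + 1) w := by
  rw [psum_cons, if_neg h]
  simp [is1]

theorem psum_step_mark (a b : A) (h : a ≠ b) (f : ℕ → ℕ) (z : ℕ) (w : List A) :
    psum (is1 a) b f z (b :: w) = f z + psum (is1 a) b f z w := by
  rw [psum_cons, if_pos rfl]
  simp [is1, h.symm]

theorem psum_step_other (a b x : A) (hxa : x ≠ a) (hxb : x ≠ b) (f : ℕ → ℕ) (z : ℕ)
    (w : List A) :
    psum (is1 a) b f z (x :: w) = psum (is1 a) b f z w := by
  rw [psum_cons, if_neg hxb]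
  simp [is1, hxa]

/-- first moment with accumulator -/
theorem psum_id (a c : A) (h : a ≠ c) (z : ℕ) (w : List A) :
    psum (is1 a) c (fun z => z) z w = z * w.count c + sub [a, c] w := by
  induction w generalizing z with
  | nil => simp [psum_nil]
  | cons x w ih =>
    by_cases hxa : x = a
    · subst hxa
      rw [psum_step_self x c h, ih, sub_cons_self, List.count_cons_of_ne h, sub_one]
      ring
    · by_cases hxc : x = c
      · subst hxc
        rw [psum_step_mark a x h, ih, sub_cons_ne a x hxa, List.count_cons_self]
        ring
      · rw [psum_step_other a c x hxa hxc, ih, sub_cons_ne a x hxa, List.count_cons_of_ne hxc]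

/-- second moment with accumulator -/
theorem psum_sq (a c : A) (h : a ≠ c) (z : ℕ) (w : List A) :
    psum (is1 a) c (fun z => z ^ 2) z w =
      z ^ 2 * w.count c + 2 * z * sub [a, c] w + (2 * sub [a, a, c] w + sub [a, c] w) := by
  induction w generalizing z with
  | nil => simp [psum_nil]
  | cons x w ih =>
    by_cases hxa : x = a
    · subst hxa
      rw [psum_step_self x c h, ih, sub_cons_self x [c], sub_cons_self x [x, c],
        List.count_cons_of_ne h, sub_one]
      ring
    · by_cases hxc : x = c
      · subst hxc
        rw [psum_step_mark a x h, ih, sub_cons_ne a x hxa, sub_cons_ne a x hxa,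
          List.count_cons_self]
        ring
      · rw [psum_step_other a c x hxa hxc, ih, sub_cons_ne a x hxa, sub_cons_ne a x hxa,
          List.count_cons_of_ne hxc]

theorem sub_two_ne (a c : A) (h : a ≠ c) (w : List A) :
    sub [a, c] w = psum (is1 a) c (fun z => z) 0 w := by
  rw [psum_id a c h]
  simp

theorem sub_two_eq (a : A) (w : List A) :
    2 * sub [a, a] w + w.count a = (w.count a) ^ 2 := by
  induction w with
  | nil => simp
  | cons x w ih =>
    by_cases hxa : x = a
    · subst hxa
      rw [sub_cons_self, List.count_cons_self, sub_one]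
      nlinarith [ih]
    · rw [sub_cons_ne a x hxa, List.count_cons_of_ne hxa, ih]

theorem sub_aaa (a : A) (w : List A) :
    6 * sub [a, a, a] w + 3 * (w.count a) ^ 2 = (w.count a) ^ 3 + 2 * w.count a := by
  induction w with
  | nil => simp
  | cons x w ih =>
    by_cases hxa : x = a
    · subst hxa
      rw [sub_cons_self, List.count_cons_self]
      have h2 := sub_two_eq x w
      nlinarith [ih, h2]
    · rw [sub_cons_ne a x hxa, List.count_cons_of_ne hxa, ih]

theorem sub_aac (a c : A) (h : a ≠ c) (w : List A) :
    2 * sub [a, a, c] w + psum (is1 a) c (fun z => z) 0 w =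
      psum (is1 a) c (fun z => z ^ 2) 0 w := by
  rw [psum_id a c h, psum_sq a c h]
  ring

/-- the identity behind `sub_acc`, in terms of subword counts only -/
theorem sub_acc_aux (a c : A) (h : a ≠ c) (w : List A) :
    2 * sub [a, c, c] w + w.count c * w.count a + 2 * w.count c * sub [c, a] w =
      (w.count c) ^ 2 * w.count a + 2 * sub [c, a] w + 2 * sub [c, c, a] w := by
  induction w with
  | nil => simp
  | cons x w ih =>
    by_cases hxa : x = a
    · subst hxa
      rw [sub_cons_self, sub_cons_ne c x h, sub_cons_ne c x h, List.count_cons_self,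
        List.count_cons_of_ne h]
      have h2 := sub_two_eq c w
      nlinarith [ih, h2]
    · by_cases hxc : x = c
      · subst hxc
        rw [sub_cons_ne a x hxa, sub_cons_self x [a], sub_cons_self x [x, a],
          List.count_cons_self, List.count_cons_of_ne hxa, sub_one]
        nlinarith [ih]
      · rw [sub_cons_ne a x hxa, sub_cons_ne c x hxc, sub_cons_ne c x hxc,
          List.count_cons_of_ne hxa, List.count_cons_of_ne hxc, ih]

/-- with `Y = w.count c`, `V0 = w.count a`, `V1`, `V2` the first and second moments of the
number of `c` before the occurrences of `a`: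
`2 sub[a,c,c] = (Y^2 - Y) V0 - (2Y - 1) V1 + V2`. -/
theorem sub_acc (a c : A) (h : a ≠ c) (w : List A) :
    2 * sub [a, c, c] w + w.count c * w.count a + 2 * w.count c * psum (is1 c) a (fun z => z) 0 w =
      (w.count c) ^ 2 * w.count a + psum (is1 c) a (fun z => z) 0 w +
        psum (is1 c) a (fun z => z ^ 2) 0 w := by
  rw [psum_id c a h.symm, psum_sq c a h.symm]
  have := sub_acc_aux a c h w
  nlinarith [this]

/-- the identity behind `sub_aba`, in terms of subword counts only -/
theorem sub_aba_aux (a b : A) (h : a ≠ b) (w : List A) :
    sub [a, b, a] w + 2 * sub [a, a, b] w + sub [a, b] w = w.count a * sub [a, b] w := by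
  induction w with
  | nil => simp
  | cons x w ih =>
    by_cases hxa : x = a
    · subst hxa
      rw [sub_cons_self x [b, x], sub_cons_self x [x, b], sub_cons_self x [b],
        List.count_cons_self, sub_one]
      have h2 := sub_prod x b h w
      nlinarith [ih, h2]
    · rw [sub_cons_ne a x hxa, sub_cons_ne a x hxa, sub_cons_ne a x hxa,
        List.count_cons_of_ne hxa, ih]

theorem sub_aba (a b : A) (h : a ≠ b) (w : List A) :
    sub [a, b, a] w + psum (is1 a) b (fun z => z ^ 2) 0 w =
      w.count a * psum (is1 a) b (fun z => z) 0 w := by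
  rw [psum_id a b h, psum_sq a b h]
  have := sub_aba_aux a b h w
  nlinarith [this]

/-- shuffle identity of `[a, b]` with `[c]` -/
theorem sub_shuffle (a b c : A) (hbc : b ≠ c) (hac : a ≠ c) (w : List A) :
    sub [a, b, c] w + sub [a, c, b] w + sub [c, a, b] w = w.count c * sub [a, b] w := by
  induction w with
  | nil => simp
  | cons x w ih =>
    by_cases hxa : x = a
    · subst hxa
      rw [sub_cons_self x [b, c], sub_cons_self x [c, b], sub_cons_ne c x hac,
        sub_cons_self x [b], List.count_cons_of_ne hac, sub_one]
      have h2 := sub_prod b c hbc w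
      nlinarith [ih, h2]
    · by_cases hxc : x = c
      · subst hxc
        rw [sub_cons_ne a x hxa, sub_cons_ne a x hxa, sub_cons_self x [a, b],
          sub_cons_ne a x hxa, List.count_cons_self]
        nlinarith [ih]
      · rw [sub_cons_ne a x hxa, sub_cons_ne a x hxa, sub_cons_ne c x hxc,
          sub_cons_ne a x hxa, List.count_cons_of_ne hxc, ih]

/-- second moment for the two letter indicator, with accumulator -/
theorem psum2_sq (a b c : A) (hab : a ≠ b) (hbc : b ≠ c) (hac : a ≠ c) (z : ℕ) (w : List A) :
    psum (is2 a c) b (fun z => z ^ 2) z w =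
      z ^ 2 * w.count b + 2 * z * (sub [a, b] w + sub [c, b] w) +
        (2 * sub [a, a, b] w + sub [a, b] w) + (2 * sub [c, c, b] w + sub [c, b] w) +
        2 * (sub [a, c, b] w + sub [c, a, b] w) := by
  induction w generalizing z with
  | nil => simp [psum_nil]
  | cons x w ih =>
    by_cases hxa : x = a
    · subst hxa
      have e : psum (is2 x c) b (fun z => z ^ 2) z (x :: w) =
          psum (is2 x c) b (fun z => z ^ 2) (z + 1) w := by
        rw [psum_cons, if_neg hab]
        simp [is2]
      rw [e, ih, sub_cons_self x [b], sub_cons_self x [x, b], sub_cons_self x [c, b],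
        sub_cons_ne c x hac, sub_cons_ne c x hac, sub_cons_ne c x hac,
        List.count_cons_of_ne hab, sub_one]
      ring
    · by_cases hxc : x = c
      · subst hxc
        have e : psum (is2 a x) b (fun z => z ^ 2) z (x :: w) =
            psum (is2 a x) b (fun z => z ^ 2) (z + 1) w := by
          rw [psum_cons, if_neg hbc.symm]
          simp [is2]
        rw [e, ih, sub_cons_self x [b], sub_cons_self x [x, b], sub_cons_self x [a, b],
          sub_cons_ne a x hxa, sub_cons_ne a x hxa, sub_cons_ne a x hxa,
          List.count_cons_of_ne hbc.symm, sub_one]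
        ring
      · by_cases hxb : x = b
        · subst hxb
          have e : psum (is2 a c) x (fun z => z ^ 2) z (x :: w) =
              z ^ 2 + psum (is2 a c) x (fun z => z ^ 2) z w := by
            rw [psum_cons, if_pos rfl]
            simp [is2, hxa, hxc]
          rw [e, ih, sub_cons_ne a x hxa, sub_cons_ne a x hxa, sub_cons_ne a x hxa,
            sub_cons_ne c x hxc, sub_cons_ne c x hxc, sub_cons_ne c x hxc,
            List.count_cons_self]
          ring
        · have e : psum (is2 a c) b (fun z => z ^ 2) z (x :: w) =
              psum (is2 a c) b (fun z => z ^ 2) z w := by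
            rw [psum_cons, if_neg hxb]
            simp [is2, hxa, hxc]
          rw [e, ih, sub_cons_ne a x hxa, sub_cons_ne a x hxa, sub_cons_ne a x hxa,
            sub_cons_ne c x hxc, sub_cons_ne c x hxc, sub_cons_ne c x hxc,
            List.count_cons_of_ne hxb]

theorem sub_abc (a b c : A) (hab : a ≠ b) (hbc : b ≠ c) (hac : a ≠ c) (w : List A) :
    2 * sub [a, b, c] w + psum (is2 a c) b (fun z => z ^ 2) 0 w =
      2 * (w.count c * psum (is1 a) b (fun z => z) 0 w) +
        psum (is1 a) b (fun z => z ^ 2) 0 w + psum (is1 c) b (fun z => z ^ 2) 0 w := by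
  rw [psum2_sq a b c hab hbc hac, psum_id a b hab, psum_sq a b hab, psum_sq c b hbc.symm]
  have := sub_shuffle a b c hbc hac w
  nlinarith [this]

end SubId

end Vale.Agent.P329
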