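import Vale.Agent.P329.SubId

namespace Vale.Agent.P329

section SubMeas

variable {A : Type}

theorem Meas.const {X : Type*} (x : X) : Meas (fun _ : List A => x) := by
  have h0 : Meas (fun (_ : List A) => fun i : Empty => (i.elim : Unit)) :=
    Meas.pi (f := fun (i : Empty) (_ : List A) => (i.elim : Unit)) (fun i => i.elim)
  exact h0.of_determined fun _ _ _ => rfl

theorem Meas.add' {M : ℕ} [NeZero M] {f g : List A → ZMod M} (hf : Meas f) (hg : Meas g) :
    Meas (fun w => f w + g w) :=
  (hf.prodMk hg).comp (fun p => p.1 + p.2)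

theorem Meas.sub' {M : ℕ} [NeZero M] {f g : List A → ZMod M} (hf : Meas f) (hg : Meas g) :
    Meas (fun w => f w - g w) :=
  (hf.prodMk hg).comp (fun p => p.1 - p.2)

theorem Meas.mul' {M : ℕ} [NeZero M] {f g : List A → ZMod M} (hf : Meas f) (hg : Meas g) :
    Meas (fun w => f w * g w) :=
  (hf.prodMk hg).comp (fun p => p.1 * p.2)

theorem Meas.congr' {X : Type*} {f g : List A → X} (hf : Meas f) (h : ∀ w, g w = f w) :
    Meas g := by
  have : g = f := funext h
  rw [this]
  exact hf

/-- Division trick: `k * s` modulo `6 * q` determines `s` modulo `q` when `k` divides six. -/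
theorem Meas.of_mul {q : ℕ} [NeZero q] (k : ℕ) (hk : k ∣ 6) (s : List A → ℕ)
    (h : Meas (fun w => ((k * s w : ℕ) : ZMod (6 * q)))) :
    Meas (fun w => ((s w : ℕ) : ZMod q)) := by
  have hq : q ≠ 0 := NeZero.ne q
  haveI : NeZero (6 * q) := ⟨by omega⟩
  refine h.of_determined fun w w' hww => ?_
  rw [ZMod.natCast_eq_natCast_iff] at hww ⊢
  have hk0 : k ≠ 0 := by
    rintro rfl
    simp at hk
  obtain ⟨j, hj⟩ := hk
  have h1 : k * s w ≡ k * s w' [MOD k * q] := by
    refine hww.of_dvd ?_
    rw [hj]
    exact ⟨j, by ring⟩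
  exact Nat.ModEq.mul_left_cancel' hk0 h1

variable [DecidableEq A]

theorem modEq_id (M : ℕ) : ∀ z z', z ≡ z' [MOD M] → (fun z : ℕ => z) z ≡ (fun z : ℕ => z) z' [MOD M] :=
  fun _ _ h => h

theorem modEq_sq (M : ℕ) :
    ∀ z z', z ≡ z' [MOD M] → (fun z : ℕ => z ^ 2) z ≡ (fun z : ℕ => z ^ 2) z' [MOD M] :=
  fun _ _ h => h.pow 2

theorem is1_ne {a c : A} (h : a ≠ c) : is1 a c = false := by
  simp [is1, Ne.symm h]

theorem is2_ne {a b c : A} (hab : a ≠ b) (hbc : b ≠ c) : is2 a c b = false := by
  simp [is2, Ne.symm hab, hbc]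

/-- T5. Scattered subword counting modulo `q` for subwords of length at most three.
Work modulo `M = 6 * q`; by T3 all quantities on the other sides of the identities T4 are
measurable modulo `M`; so `k * sub u w` modulo `6 * q` is determined, `k` one of 1, 2, 6, hence
`sub u w` modulo `q`. -/
theorem sub_Meas [Finite A] (u : List A) (hu : u.length ≤ 3) (q : ℕ) [NeZero q] :
    Meas (fun w : List A => ((sub u w : ℕ) : ZMod q)) := by
  have hq : q ≠ 0 := NeZero.ne q
  haveI : NeZero (6 * q) := ⟨by omega⟩
  -- abbreviations for the measurable statistics modulo `6 * q`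
  have hC : ∀ a : A, Meas (fun w : List A => ((w.count a : ℕ) : ZMod (6 * q))) :=
    fun a => count_letter_Meas (6 * q) a
  have hP1 : ∀ a c : A, a ≠ c →
      Meas (fun w : List A => ((psum (is1 a) c (fun z => z) 0 w : ℕ) : ZMod (6 * q))) :=
    fun a c h => psum_Meas (6 * q) (is1 a) c (is1_ne h) _ (modEq_id _)
  have hP2 : ∀ a c : A, a ≠ c →
      Meas (fun w : List A => ((psum (is1 a) c (fun z => z ^ 2) 0 w : ℕ) : ZMod (6 * q))) :=
    fun a c h => psum_Meas (6 * q) (is1 a) c (is1_ne h) _ (modEq_sq _)
  match u, hu with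
  | [], _ =>
    refine (Meas.const (A := A) (1 : ZMod q)).congr' fun w => ?_
    simp
  | [a], _ =>
    refine (count_letter_Meas q a).congr' fun w => ?_
    rw [sub_one]
  | [a, c], _ =>
    by_cases h : a = c
    · subst h
      refine Meas.of_mul 2 (by norm_num) _ ?_
      refine (((hC a).mul' (hC a)).sub' (hC a)).congr' fun w => ?_
      have := congrArg (fun n : ℕ => (n : ZMod (6 * q))) (sub_two_eq a w)
      simp only [Nat.cast_add, Nat.cast_pow] at this
      rw [eq_sub_iff_add_eq, this]
      ring
    · refine (psum_Meas q (is1 a) c (is1_ne h) _ (modEq_id _)).congr' fun w => ?_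
      rw [sub_two_ne a c h]
  | [a, b, c], _ =>
    by_cases hab : a = b
    · subst hab
      by_cases hac : a = c
      · subst hac
        refine Meas.of_mul 6 (by norm_num) _ ?_
        refine (((((hC a).mul' (hC a)).mul' (hC a)).add' ((hC a).add' (hC a))).sub'
          ((((hC a).mul' (hC a)).add' ((hC a).mul' (hC a))).add' ((hC a).mul' (hC a)))).congr'
          fun w => ?_
        have := congrArg (fun n : ℕ => (n : ZMod (6 * q))) (sub_aaa a w)
        simp only [Nat.cast_add, Nat.cast_pow, Nat.cast_mul, Nat.cast_ofNat] at this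
        rw [eq_sub_iff_add_eq]
        push_cast
        linear_combination this
      · refine Meas.of_mul 2 (by norm_num) _ ?_
        refine ((hP2 a c hac).sub' (hP1 a c hac)).congr' fun w => ?_
        have := congrArg (fun n : ℕ => (n : ZMod (6 * q))) (sub_aac a c hac w)
        simp only [Nat.cast_add] at this
        rw [eq_sub_iff_add_eq, this]
    · by_cases hbc : b = c
      · subst hbc
        refine Meas.of_mul 2 (by norm_num) _ ?_
        have hba : b ≠ a := Ne.symm hab
        refine ((((((hC b).mul' (hC b)).mul' (hC a)).add' (hP1 b a hba)).add' (hP2 b a hba)).sub'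
          (((hC b).mul' (hC a)).add' (((hC b).mul' (hP1 b a hba)).add'
            ((hC b).mul' (hP1 b a hba))))).congr' fun w => ?_
        have := congrArg (fun n : ℕ => (n : ZMod (6 * q))) (sub_acc a b hab w)
        simp only [Nat.cast_add, Nat.cast_pow, Nat.cast_mul, Nat.cast_ofNat] at this
        rw [eq_sub_iff_add_eq]
        push_cast
        linear_combination this
      · by_cases hac : a = c
        · subst hac
          refine Meas.of_mul 1 (by norm_num) _ ?_
          refine (((hC a).mul' (hP1 a b hab)).sub' (hP2 a b hab)).congr' fun w => ?_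
          have := congrArg (fun n : ℕ => (n : ZMod (6 * q))) (sub_aba a b hab w)
          simp only [Nat.cast_add, Nat.cast_mul] at this
          rw [eq_sub_iff_add_eq]
          push_cast
          linear_combination this
        · refine Meas.of_mul 2 (by norm_num) _ ?_
          have hcb : c ≠ b := Ne.symm hbc
          have hQ : Meas (fun w : List A =>
              ((psum (is2 a c) b (fun z => z ^ 2) 0 w : ℕ) : ZMod (6 * q))) :=
            psum_Meas (6 * q) (is2 a c) b (is2_ne hab hbc) _ (modEq_sq _)
          refine ((((((hC c).mul' (hP1 a b hab)).add' ((hC c).mul' (hP1 a b hab))).add'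
            (hP2 a b hab)).add' (hP2 c b hcb)).sub' hQ).congr' fun w => ?_
          have := congrArg (fun n : ℕ => (n : ZMod (6 * q))) (sub_abc a b c hab hbc hac w)
          simp only [Nat.cast_add, Nat.cast_mul, Nat.cast_ofNat] at this
          rw [eq_sub_iff_add_eq]
          push_cast
          linear_combination this

end SubMeas

end Vale.Agent.P329
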